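import Vale.Agent.P327.Haar

/-! Two commuting linear actions on Cantor space and a ping-pong family. -/

namespace Vale.Agent.P327

open Primrec MeasureTheory Set

abbrev Al : Type := Bool × ℤ
abbrev Gen : Type := Option (Bool × Bool)
abbrev XX : Type := Al × Al → Bool

def gf : Gen → Al → Al
  | none, a => (!a.1, a.2)
  | some (false, _), a => a
  | some (true, b), a => if a.1 = true then a else (false, if b = true then a.2 + 1 else a.2 - 1)

def gc : Gen → Al → Bool
  | some (false, b), a => b && a.1
  | _, _ => false

def gg (a : Al) : Al := (false, a.2)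

/-- Transposition. -/
def tr : XX →+ XX where
  toFun x i := x (i.2, i.1)
  map_zero' := rfl
  map_add' _ _ := rfl

def genA (s : Gen) : XX →+ XX where
  toFun x i := xor (x (gf s i.1, i.2)) (gc s i.1 && x (gg i.1, i.2))
  map_zero' := by funext i; show xor false (_ && false) = false; simp
  map_add' x y := by
    funext i
    show xor (xor _ _) (_ && xor _ _) = xor (xor _ _) (xor _ _)
    generalize x (gf s i.1, i.2) = a
    generalize y (gf s i.1, i.2) = b
    generalize x (gg i.1, i.2) = c
    generalize y (gg i.1, i.2) = d
    generalize gc s i.1 = e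
    revert a b c d e; decide

def gen (sd : Bool) (s : Gen) : XX →+ XX := if sd = true then tr.comp ((genA s).comp tr) else genA s

def act (sd : Bool) (w : List Gen) : XX →+ XX :=
  w.foldr (fun s f => (gen sd s).comp f) (AddMonoidHom.id _)

@[simp] theorem act_nil (sd : Bool) (x : XX) : act sd [] x = x := rfl
@[simp] theorem act_cons (sd : Bool) (s : Gen) (w : List Gen) (x : XX) :
    act sd (s :: w) x = gen sd s (act sd w x) := rfl

theorem act_append (sd : Bool) (w w' : List Gen) (x : XX) :
    act sd (w ++ w') x = act sd w (act sd w' x) := by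
  induction w with
  | nil => rfl
  | cons s w ih => simp [ih]

@[simp] theorem tr_tr (x : XX) : tr (tr x) = x := rfl

theorem act_true (w : List Gen) (x : XX) : act true w x = tr (act false w (tr x)) := by
  induction w with
  | nil => rfl
  | cons s w ih => simp [ih, gen]

theorem continuous_tr : Continuous tr := continuous_pi fun _ => continuous_apply _

theorem continuous_genA (s : Gen) : Continuous (genA s) := continuous_pi fun i =>
  (continuous_of_discreteTopology (f := fun z : Bool × Bool => xor z.1 (gc s i.1 && z.2))).comp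
    (f := fun x : XX => (x (gf s i.1, i.2), x (gg i.1, i.2)))
    ((continuous_apply (gf s i.1, i.2)).prodMk (continuous_apply (gg i.1, i.2)))

theorem continuous_gen (sd : Bool) (s : Gen) : Continuous (gen sd s) := by
  cases sd
  · exact continuous_genA s
  · exact continuous_tr.comp ((continuous_genA s).comp continuous_tr)

theorem continuous_act (sd : Bool) (w : List Gen) : Continuous (act sd w) := by
  induction w with
  | nil => exact continuous_id
  | cons s w ih => exact (continuous_gen sd s).comp ih

theorem surj_genA (s : Gen) : Function.Surjective (genA s) := by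
  intro x
  rcases s with _ | ⟨_ | _, b⟩
  · refine ⟨genA none x, ?_⟩
    funext ⟨⟨r, m⟩, i⟩
    simp [genA, gf, gc]
  · refine ⟨genA (some (false, b)) x, ?_⟩
    funext ⟨⟨r, m⟩, i⟩
    cases r <;> simp [genA, gf, gc, gg]
  · refine ⟨genA (some (true, !b)) x, ?_⟩
    funext ⟨⟨r, m⟩, i⟩
    cases r <;> cases b <;> simp [genA, gf, gc]

theorem surj_tr : Function.Surjective tr := fun x => ⟨tr x, rfl⟩

theorem surj_gen (sd : Bool) (s : Gen) : Function.Surjective (gen sd s) := by
  cases sd
  · exact surj_genA s
  · exact surj_tr.comp ((surj_genA s).comp surj_tr)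

theorem surj_act (sd : Bool) (w : List Gen) : Function.Surjective (act sd w) := by
  induction w with
  | nil => exact Function.surjective_id
  | cons s w ih => exact (surj_gen sd s).comp ih

theorem mp_act (sd : Bool) (w : List Gen) : MeasurePreserving (act sd w) (mu _) (mu _) :=
  mp_hom _ (continuous_act sd w) (surj_act sd w)

theorem mp_gen (sd : Bool) (s : Gen) : MeasurePreserving (gen sd s) (mu _) (mu _) :=
  mp_hom _ (continuous_gen sd s) (surj_gen sd s)

theorem mp_tr : MeasurePreserving tr (mu _) (mu _) := mp_hom _ continuous_tr surj_tr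

theorem gen_comm (s s' : Gen) (x : XX) : gen false s (gen true s' x) = gen true s' (gen false s x) := by
  funext ⟨a, b⟩
  show xor (xor (x (gf s a, gf s' b)) (gc s' b && x (gf s a, gg b)))
      (gc s a && xor (x (gg a, gf s' b)) (gc s' b && x (gg a, gg b))) =
    xor (xor (x (gf s a, gf s' b)) (gc s a && x (gg a, gf s' b)))
      (gc s' b && xor (x (gf s a, gg b)) (gc s a && x (gg a, gg b)))
  generalize x (gf s a, gf s' b) = a1
  generalize x (gf s a, gg b) = a2
  generalize x (gg a, gf s' b) = a3
  generalize x (gg a, gg b) = a4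
  generalize gc s a = a5
  generalize gc s' b = a6
  revert a1 a2 a3 a4 a5 a6; decide

theorem act_comm (sd : Bool) (w w' : List Gen) (x : XX) :
    act sd w (act (!sd) w' x) = act (!sd) w' (act sd w x) := by
  have h0 : ∀ s s' x, gen sd s (gen (!sd) s' x) = gen (!sd) s' (gen sd s x) := by
    intro s s' x
    cases sd
    · exact gen_comm s s' x
    · exact (gen_comm s' s x).symm
  have h1 : ∀ s x, gen sd s (act (!sd) w' x) = act (!sd) w' (gen sd s x) := by
    intro s x
    induction w' with
    | nil => rfl
    | cons s' w' ih => simp [h0, ih]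
  induction w with
  | nil => rfl
  | cons s w ih => simp [h1, ih]

theorem encode_ofNat (n : ℕ) : Encodable.encode (n : ℤ) = 2 * n := by
  show Equiv.natSumNatEquivNat (Sum.inl n) = 2 * n
  simp

theorem encode_negSucc (n : ℕ) : Encodable.encode (Int.negSucc n) = 2 * n + 1 := by
  show Equiv.intEquivNat (Int.negSucc n) = 2 * n + 1
  simp [Equiv.intEquivNat, Equiv.intEquivNatSumNat]

theorem primrec_int_succ : Primrec (fun m : ℤ => m + 1) := by
  have h : Primrec (fun k : ℕ => if k % 2 = 0 then k + 2 else k - 2) :=
    Primrec.ite (Primrec.eq.comp (nat_mod.comp Primrec.id (const 2)) (const 0))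
      (nat_add.comp Primrec.id (const 2)) (nat_sub.comp Primrec.id (const 2))
  refine Primrec.encode_iff.1 ((h.comp Primrec.encode).of_eq ?_)
  rintro (n | _ | n)
  · rw [Int.ofNat_eq_natCast, ← Nat.cast_succ, encode_ofNat, encode_ofNat]; simp; ring
  · rfl
  · rw [show Int.negSucc (n + 1) + 1 = Int.negSucc n by omega, encode_negSucc, encode_negSucc,
      if_neg (by omega)]
    omega

theorem primrec_int_pred : Primrec (fun m : ℤ => m - 1) := by
  have h : Primrec (fun k : ℕ => if k % 2 = 1 then k + 2 else if k = 0 then 1 else k - 2) :=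
    Primrec.ite (Primrec.eq.comp (nat_mod.comp Primrec.id (const 2)) (const 1))
      (nat_add.comp Primrec.id (const 2))
      (Primrec.ite (Primrec.eq.comp Primrec.id (const 0)) (const 1)
        (nat_sub.comp Primrec.id (const 2)))
  refine Primrec.encode_iff.1 ((h.comp Primrec.encode).of_eq ?_)
  rintro ((_ | n) | n)
  · rfl
  · rw [Int.ofNat_eq_natCast, show (((n + 1 : ℕ) : ℤ) - 1) = (n : ℤ) by omega, encode_ofNat,
      encode_ofNat, if_neg (by omega), if_neg (by omega)]
    omega
  · rw [show Int.negSucc n - 1 = Int.negSucc (n + 1) by omega, encode_negSucc, encode_negSucc,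
      if_pos (by omega)]
    omega

theorem primrec_gf (s : Gen) : Primrec (gf s) := by
  rcases s with _ | ⟨_ | _, b⟩
  · exact (Primrec.not.comp fst).pair snd
  · exact Primrec.id
  · cases b
    · exact Primrec.ite (Primrec.eq.comp fst (const true)) Primrec.id
        ((const false).pair (primrec_int_pred.comp snd))
    · exact Primrec.ite (Primrec.eq.comp fst (const true)) Primrec.id
        ((const false).pair (primrec_int_succ.comp snd))

theorem primrec_gc (s : Gen) : Primrec (gc s) := by
  rcases s with _ | ⟨_ | _, b⟩
  · exact const false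
  · exact Primrec.and.comp (const b) fst
  · exact const false

theorem deg_tr (x : XX) : deg (tr x) ≤ deg x :=
  deg_le.2 (Red.comp (f := fun i => (i.2, i.1)) (snd.pair fst) fun _ => rfl)

theorem deg_genA (s : Gen) (x : XX) : deg (genA s x) ≤ deg x :=
  deg_le.2 (Red.op2 (f := fun i => (gf s i.1, i.2)) (g := fun i => (gg i.1, i.2))
    (op := fun z => xor z.2.1 (gc s z.1.1 && z.2.2)) (((primrec_gf s).comp fst).pair snd)
    (((const false).pair (snd.comp fst)).pair snd)
    ((dom_bool₂ xor).comp (fst.comp snd)
      (Primrec.and.comp ((primrec_gc s).comp (fst.comp fst)) (snd.comp snd))) fun _ => rfl)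

theorem deg_gen (sd : Bool) (s : Gen) (x : XX) : deg (gen sd s x) ≤ deg x := by
  cases sd
  · exact deg_genA s x
  · exact (deg_tr _).trans ((deg_genA s _).trans (deg_tr x))

/-! The dual action. -/

abbrev Col : Type := ℤ → Al → Bool

def co (φ : XX →+ Bool) : Col × Col :=
  (fun m b => φ (Pi.single ((false, m), b) true), fun m b => φ (Pi.single ((true, m), b) true))

def dual : Gen → Col × Col → Col × Col
  | none, v => (v.2, v.1)
  | some (false, b), v => (if b = true then v.1 + v.2 else v.1, v.2)
  | some (true, b), v => (fun m => v.1 (if b = true then m - 1 else m + 1), v.2)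

theorem bool_zero : (0 : Bool) = false := rfl

theorem co_gen (φ : XX →+ Bool) (s : Gen) : co (φ.comp (gen false s)) = dual s (co φ) := by
  rcases s with _ | ⟨_ | _, c⟩
  · refine Prod.ext ?_ ?_ <;> funext m b <;> refine congrArg φ ?_ <;> funext ⟨⟨r, k⟩, i⟩ <;>
      cases r <;> simp [gen, genA, gf, gc, Pi.single_apply]
  · refine Prod.ext ?_ ?_ <;> funext m b
    · cases c
      · refine congrArg φ ?_
        funext ⟨⟨r, k⟩, i⟩
        simp [gen, genA, gf, gc]
      · show φ _ = φ _ + φ _
        rw [← map_add]
        refine congrArg φ ?_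
        funext ⟨⟨r, k⟩, i⟩
        show _ = xor _ _
        cases r <;> simp [gen, genA, gf, gc, gg, Pi.single_apply, bool_zero]
    · refine congrArg φ ?_
      funext ⟨⟨r, k⟩, i⟩
      cases r <;> simp [gen, genA, gf, gc, gg, Pi.single_apply, bool_zero]
  · refine Prod.ext ?_ ?_ <;> funext m b <;> refine congrArg φ ?_ <;> funext ⟨⟨r, k⟩, i⟩ <;>
      cases r <;> cases c <;>
      simp [gen, genA, gf, gc, Pi.single_apply, eq_sub_iff_add_eq, sub_eq_iff_eq_add]

theorem co_act (φ : XX →+ Bool) (w : List Gen) :
    co (φ.comp (act false w)) = w.foldl (fun v s => dual s v) (co φ) := by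
  induction w generalizing φ with
  | nil => rfl
  | cons s w ih => rw [List.foldl_cons, ← co_gen, ← ih]; rfl

def mulR : List Bool → Col → Col
  | [], _ => 0
  | b :: c, q => fun m => ((if b = true then q else 0) + mulR c q) (m - 1)

def shW (c : List Bool) : List Gen :=
  c.foldr (fun b w => some (true, false) :: (w ++ [some (false, b), some (true, true)])) []

def gW (c : List Bool) : List Gen := shW c ++ none :: shW c

theorem primrec_gW : Primrec gW := by
  have h : Primrec shW := list_foldr Primrec.id (const [])
    (list_cons.comp (const (some (true, false))) (list_append.comp (snd.comp snd)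
      (list_cons.comp (option_some.comp ((const false).pair (fst.comp snd)))
        (const [some (true, true)])))).to₂
  exact list_append.comp h (list_cons.comp (const none) h)

theorem length_gW (c : List Bool) : (gW c).length = 6 * c.length + 1 := by
  have : (shW c).length = 3 * c.length := by
    induction c with
    | nil => rfl
    | cons b c ih =>
      simp only [shW, List.foldr_cons, List.length_cons, List.length_append] at ih ⊢
      rw [ih]; simp; ring
  simp [gW, this]; ring

theorem dual_shW (c : List Bool) (v : Col × Col) :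
    (shW c).foldl (fun v s => dual s v) v = (v.1 + mulR c v.2, v.2) := by
  induction c generalizing v with
  | nil => simp [shW, mulR]
  | cons b c ih =>
    have : shW (b :: c) = some (true, false) :: (shW c ++ [some (false, b), some (true, true)]) :=
      rfl
    rw [this, List.foldl_cons, List.foldl_append, ih]
    refine Prod.ext ?_ rfl
    funext m
    cases b
    · simp [dual, mulR]
    · simp [dual, mulR]; abel

def gd (c : List Bool) (v : Col × Col) : Col × Col :=
  (v.2 + mulR c (v.1 + mulR c v.2), v.1 + mulR c v.2)

theorem co_gW (φ : XX →+ Bool) (c : List Bool) :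
    co (φ.comp (act false (gW c))) = gd c (co φ) := by
  rw [co_act, gW, List.foldl_append, dual_shW, List.foldl_cons, dual_shW]
  rfl

theorem col_add_self (p : Col) : p + p = 0 := by
  funext m; exact add_self_fun (p m)

theorem gd_gd (c : List Bool) (v : Col × Col) : gd c (gd c v) = v := by
  have : (gd c v).1 + mulR c (gd c v).2 = v.2 := by
    simp only [gd]; rw [add_assoc, col_add_self, add_zero]
  rw [gd, this]
  simp only [gd]; rw [add_assoc, col_add_self, add_zero]

theorem hasSum_hom {φ : XX →+ Bool} (hφ : Continuous φ) (x : XX) :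
    HasSum (fun i => φ (Pi.single i (x i))) (φ x) := by
  have : HasSum (fun i => (Pi.single i (x i) : XX)) x := by
    refine Pi.hasSum.2 fun j => ?_
    convert hasSum_single (f := fun i => (Pi.single i (x i) : XX) j) j
      (fun i hi => Pi.single_eq_of_ne' hi _) using 1
    simp
  exact this.map φ hφ

theorem co_inj {φ ψ : XX →+ Bool} (hφ : Continuous φ) (hψ : Continuous ψ) (h : co φ = co ψ) :
    φ = ψ := by
  ext x
  refine (hasSum_hom hφ x).unique ?_
  convert hasSum_hom hψ x using 2 with i
  rcases i with ⟨⟨r, m⟩, b⟩
  cases x ((r, m), b)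
  · exact (congrArg φ (Pi.single_zero _)).trans ((map_zero φ).trans
      ((map_zero ψ).symm.trans (congrArg ψ (Pi.single_zero _)).symm))
  · cases r
    · exact congrFun (congrFun (congrArg Prod.fst h) m) b
    · exact congrFun (congrFun (congrArg Prod.snd h) m) b

/-- Evaluation. -/
def ev (i : Al × Al) : XX →+ Bool where
  toFun x := x i
  map_zero' := rfl
  map_add' _ _ := rfl

theorem continuous_ev (i : Al × Al) : Continuous (ev i) := continuous_apply i

theorem act_gW_gW (sd : Bool) (c : List Bool) (x : XX) :
    act sd (gW c) (act sd (gW c) x) = x := by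
  have key : ∀ x, act false (gW c) (act false (gW c) x) = x := by
    intro x
    funext i
    have : ((ev i).comp (act false (gW c))).comp (act false (gW c)) = ev i :=
      co_inj (((continuous_ev i).comp (continuous_act _ _)).comp (continuous_act _ _))
        (continuous_ev i) (by rw [co_gW, co_gW, gd_gd])
    exact DFunLike.congr_fun this x
  cases sd
  · exact key x
  · simp [act_true, key]

theorem mulR_zero (c : List Bool) : mulR c 0 = 0 := by
  induction c with
  | nil => rfl
  | cons b c ih => funext m; simp [mulR, ih]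

/-- The strings used for reading bit `n`. -/
def cb (n : ℕ) (b : Bool) (u : List Bool) : List Bool := List.replicate n false ++ b :: u

theorem mulR_cb (n : ℕ) (u : List Bool) (p : Col) :
    mulR (cb n true u) p + mulR (cb n false u) p = fun m => p (m - (n + 1)) := by
  induction n with
  | zero =>
    funext m
    simp [cb, mulR, add_assoc, add_self_fun]
  | succ n ih =>
    funext m
    have := congrFun ih (m - 1)
    simp only [cb, List.replicate_succ, List.cons_append, mulR, Pi.add_apply] at this ⊢
    simp only [Bool.false_eq_true, if_false, Pi.zero_apply, zero_add]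
    rw [this]
    congr 1
    push_cast; ring

/-- Base coordinate. -/
def i0 : Al × Al := ((false, 0), (false, 0))

/-- Coordinate of bit `n`. -/
def pos (n : ℕ) : Al × Al := ((false, ((n + 1 : ℕ) : ℤ)), (false, 0))

theorem bit_formula (n : ℕ) (u : List Bool) (x : XX) :
    x (pos n) = xor (act false (gW (cb n true u)) x i0) (act false (gW (cb n false u)) x i0) := by
  have h0 : (co (ev i0)).2 = 0 := by
    funext m b; simp [co, ev, i0, Pi.single_apply]
  have : ev (pos n) = (ev i0).comp (act false (gW (cb n true u))) +
      (ev i0).comp (act false (gW (cb n false u))) := by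
    refine co_inj (continuous_ev _) (((continuous_ev _).comp (continuous_act _ _)).add
      ((continuous_ev _).comp (continuous_act _ _))) ?_
    have hadd : ∀ φ ψ : XX →+ Bool, co (φ + ψ) = co φ + co ψ := fun _ _ => rfl
    rw [hadd, co_gW, co_gW]
    simp only [gd, h0, mulR_zero, add_zero, zero_add, Prod.mk_add_mk, mulR_cb, col_add_self]
    refine Prod.ext ?_ ?_
    · funext m b
      simp [co, ev, i0, pos, Pi.single_apply, eq_sub_iff_add_eq]
    · funext m b
      simp [co, ev, pos, Pi.single_apply]
  exact DFunLike.congr_fun this x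

/-! Ping-pong. -/

def Below (p : Col) (n : ℤ) : Prop := ∀ m, n < m → p m = 0
def Top (p : Col) (n : ℤ) : Prop := p n ≠ 0 ∧ Below p n
def PP (c : List Bool) (v : Col × Col) : Prop := ∃ n, Top v.2 n ∧ Below (v.1 + mulR c v.2) n

theorem exists_top {p : Col} (h : ∃ n, Below p n) (h0 : p ≠ 0) : ∃ n, Top p n := by
  obtain ⟨n, hn⟩ := h
  obtain ⟨m, hm⟩ := Function.ne_iff.1 h0
  obtain ⟨k, h1, h2⟩ := Int.exists_greatest_of_bdd (P := fun k => p k ≠ 0)
    ⟨n, fun z hz => not_lt.1 fun h => hz (hn z h)⟩ ⟨m, hm⟩
  exact ⟨k, h1, fun m hm => by by_contra h; exact absurd (h2 m h) (not_le.2 hm)⟩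

theorem top_mulR {q : Col} {n : ℤ} (hq : Top q n) (c c' : List Bool) (hl : c.length = c'.length)
    (hne : c ≠ c') : ∃ n', n < n' ∧ Top (mulR c q + mulR c' q) n' := by
  induction c generalizing c' with
  | nil => exact absurd (List.length_eq_zero_iff.1 hl.symm).symm hne
  | cons b c ih =>
    rcases c' with _ | ⟨b', c'⟩
    · simp at hl
    have he : ∀ m, (mulR (b :: c) q + mulR (b' :: c') q) m =
        (if b = b' then 0 else q (m - 1)) + (mulR c q + mulR c' q) (m - 1) := by
      intro m
      cases b <;> cases b' <;> simp [mulR, add_assoc, add_left_comm]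
      rw [← add_assoc, add_self_fun, zero_add]
    by_cases hc : c = c'
    · subst hc
      have hb : b ≠ b' := fun h => hne (by rw [h])
      refine ⟨n + 1, by omega, ?_, fun m hm => ?_⟩
      · rw [he, col_add_self, if_neg hb]; simpa using hq.1
      · rw [he, col_add_self, if_neg hb, hq.2 _ (by omega)]; simp
    · obtain ⟨n', h1, h2⟩ := ih c' (by simpa using hl) hc
      refine ⟨n' + 1, by omega, ?_, fun m hm => ?_⟩
      · rw [he, add_sub_cancel_right, hq.2 _ h1, ite_self, zero_add]; exact h2.1
      · rw [he, hq.2 _ (by omega), ite_self, zero_add]; exact h2.2 _ (by omega)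

theorem PP.unique {c c' : List Bool} {v : Col × Col} (hl : c.length = c'.length) (h : PP c v)
    (h' : PP c' v) : c = c' := by
  by_contra hne
  obtain ⟨n, h1, h2⟩ := h
  obtain ⟨n', h3, h4⟩ := h'
  obtain rfl : n = n' := le_antisymm (not_lt.1 fun h => h1.1 (h3.2 _ h))
    (not_lt.1 fun h => h3.1 (h1.2 _ h))
  obtain ⟨k, h5, h6⟩ := top_mulR h1 c c' hl hne
  apply h6.1
  have e : mulR c v.2 + mulR c' v.2 = (v.1 + mulR c v.2) + (v.1 + mulR c' v.2) := by
    rw [add_add_add_comm, col_add_self, zero_add]
  rw [e, Pi.add_apply, h2 k h5, h4 k h5, add_zero]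

theorem bdd_co {φ : XX →+ Bool} (hφ : Continuous φ) : ∃ n, Below (co φ).2 n := by
  have h1 := (hasSum_hom hφ (fun _ => true)).summable.tendsto_cofinite_zero
  rw [nhds_discrete, Filter.tendsto_pure, Filter.eventually_cofinite] at h1
  obtain ⟨n, hn⟩ := (h1.image (fun i => i.1.2)).bddAbove
  refine ⟨n, fun m hm => funext fun b => ?_⟩
  by_contra h
  exact absurd (hn ⟨((true, m), b), h, rfl⟩) (not_le.2 hm)

theorem pingpong {φ : XX →+ Bool} (hφ : Continuous φ) (h0 : φ ≠ 0) (c : List Bool)
    (h : ¬ PP c (co φ)) : PP c (co (φ.comp (act false (gW c)))) := by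
  have h1 := bdd_co hφ
  have h2 := bdd_co (φ := φ.comp (act false (gW c))) (hφ.comp (continuous_act _ _))
  rw [co_gW] at h2 ⊢
  have h3 : (gd c (co φ)).1 + mulR c (gd c (co φ)).2 = (co φ).2 := by
    simp only [gd]; rw [add_assoc, col_add_self, add_zero]
  have h4 : (gd c (co φ)).2 ≠ 0 := by
    intro h4
    by_cases h5 : (co φ).2 = 0
    · apply h0
      refine co_inj hφ continuous_const (Prod.ext ?_ h5)
      show (co φ).1 = 0
      simpa [gd, h5, mulR_zero] using h4
    · obtain ⟨n, hn⟩ := exists_top h1 h5
      exact h ⟨n, hn, fun m _ => congrFun h4 m⟩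
  obtain ⟨n, hn⟩ := exists_top h2 h4
  refine ⟨n, hn, ?_⟩
  rw [h3]
  intro m hm
  by_contra h5
  obtain ⟨k, hk⟩ := exists_top h1 (fun h => h5 (congrFun h m))
  have : m ≤ k := not_lt.1 fun h => h5 (hk.2 _ h)
  exact h ⟨k, hk, fun j hj => hn.2 j (by omega)⟩

end Vale.Agent.P327
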