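import Vale.Agent.P327.Haar

/-! Coding a real by which columns of a generic family lie below a degree. -/

namespace Vale.Agent.P327

open Primrec MeasureTheory Set

/-- Selected columns. -/
def sel (R : ℕ × Bool × ℕ → Bool) (Y : ℕ → Bool) : ℕ × ℕ → Bool := fun z => R (z.1, Y z.1, z.2)

/-- One column. -/
def col (R : ℕ × Bool × ℕ → Bool) (n : ℕ) : ℕ → Bool := fun j => R (n, true, j)

/-- Agreement on a box. -/
def Agree (m : ℕ) (R R' : ℕ × Bool × ℕ → Bool) : Prop :=
  ∀ k b j, k < m → j < m → R' (k, b, j) = R (k, b, j)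

theorem Agree.trans {m m' : ℕ} {R R' R'' : ℕ × Bool × ℕ → Bool} (h : Agree m R R')
    (h' : Agree m' R' R'') (hm : m ≤ m') : Agree m R R'' := fun k b j hk hj =>
  (h' k b j (hk.trans_le hm) (hj.trans_le hm)).trans (h k b j hk hj)

theorem ext_list (n m : ℕ) (hn : n < m) (W : (ℕ × List ((ℕ × ℕ) × Bool)) × (ℕ × Bool) → Prop)
    (R₀ : ℕ × Bool × ℕ → Bool) (Ls : List (List Bool)) :
    ∃ R₁ m₁, m ≤ m₁ ∧ Agree m R₀ R₁ ∧ (∀ k j b b', m ≤ k → R₁ (k, b, j) = R₁ (k, b', j)) ∧
      ∀ σ ∈ Ls, ∀ R, Agree m₁ R₁ R → ∀ Y, pre m Y = σ → Y n = false →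
        ¬ ∀ q, gr (col R n) q ↔ app W (gr (sel R Y)) q := by
  induction Ls with
  | nil =>
    refine ⟨fun z => if z.1 < m then R₀ z else false, m, le_rfl, fun k b j hk _ => by simp [hk],
      fun k j b b' hk => by simp [not_lt.2 hk], by simp⟩
  | cons σ Ls ih =>
    obtain ⟨R₁, m₁, h1, h2, h3, h4⟩ := ih
    by_cases hc : ∃ Y R v, pre m Y = σ ∧ Y n = false ∧ Agree m₁ R₁ R ∧
        app W (gr (sel R Y)) (m₁, v)
    · obtain ⟨Y, R, v, hY, hYn, hR, w, l, hl, hW⟩ := hc
      let R₂ : ℕ × Bool × ℕ → Bool := fun z =>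
        if m ≤ z.1 then R (z.1, Y z.1, z.2.2) else if z = (n, true, m₁) then !v else R z
      let m₂ := (l.map (fun q => q.1.1 + q.1.2)).sum + m₁ + 1
      have hA : Agree m₁ R₁ R₂ := by
        intro k b j hk hj
        simp only [R₂]
        split_ifs with h5 h6
        · rw [hR k _ j hk hj]; exact h3 k j _ _ h5
        · simp only [Prod.mk.injEq] at h6; omega
        · exact hR k b j hk hj
      have hm : m₁ ≤ m₂ := by simp only [m₂]; omega
      refine ⟨R₂, m₂, h1.trans hm, h2.trans hA h1, fun k j b b' hk => by simp [R₂, hk], ?_⟩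
      intro σ' hσ' R' hR' Y' hY' hYn'
      rcases List.mem_cons.1 hσ' with rfl | hσ'
      · intro hq
        have h5 : app W (gr (sel R' Y')) (m₁, v) := by
          refine ⟨w, l, fun q hq => ?_, hW⟩
          have h6 := List.le_sum_of_mem (List.mem_map_of_mem (f := fun q => q.1.1 + q.1.2) hq)
          have h7 := hl q hq
          simp only [gr, sel] at h7 ⊢
          rw [hR' _ _ _ (by simp only [m₂]; omega) (by simp only [m₂]; omega), ← h7]
          simp only [R₂]
          split_ifs with h8 h9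
          · rfl
          · simp only [Prod.mk.injEq] at h9
            rw [h9.1, hYn'] at h9
            simp at h9
          · have h10 : Y' q.1.1 = Y q.1.1 := by
              have e1 := (pre_eq_iff (σ := pre m Y) (by simp [pre])).1 (hY'.symm ▸ hY.symm)
              have e2 := (pre_eq_iff (σ := pre m Y) (by simp [pre])).1 rfl
              rw [e1 _ (not_le.1 h8), e2 _ (not_le.1 h8)]
            rw [h10]
        have h6 := (hq _).2 h5
        simp only [gr, col] at h6
        rw [hR' _ _ _ (by simp only [m₂]; omega) (by simp only [m₂]; omega)] at h6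
        simp [R₂, not_le.2 hn] at h6
      · exact h4 σ' hσ' R' (hA.trans hR' hm) Y' hY' hYn'
    · refine ⟨R₁, m₁, h1, h2, h3, ?_⟩
      intro σ' hσ' R hR Y hY hYn
      rcases List.mem_cons.1 hσ' with rfl | hσ'
      · intro hq
        exact hc ⟨Y, R, col R n m₁, hY, hYn, hR, (hq _).1 rfl⟩
      · exact h4 σ' hσ' R hR Y hY hYn

theorem isOpen_agree (m : ℕ) (R : ℕ × Bool × ℕ → Bool) : IsOpen {R' | Agree m R R'} := by
  have : {R' | Agree m R R'} = Set.pi (Iio m ×ˢ (univ : Set Bool) ×ˢ Iio m) (fun i => {R i}) := by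
    ext R'
    simp only [Agree, mem_ofPred_eq, mem_pi, mem_prod, mem_Iio, mem_univ, true_and,
      mem_singleton_iff, Prod.forall, and_imp]
  rw [this]
  exact isOpen_set_pi ((finite_Iio m).prod (finite_univ.prod (finite_Iio m)))
    fun _ _ => isOpen_discrete _

theorem exists_code : ∃ R : ℕ × Bool × ℕ → Bool, ∀ Y n, Red (col R n) (sel R Y) ↔ Y n = true := by
  obtain ⟨E, hE, hE'⟩ := exists_enum_primrecPred ((ℕ × List ((ℕ × ℕ) × Bool)) × (ℕ × Bool))
  let Gd : ℕ × ℕ → Set (ℕ × Bool × ℕ → Bool) := fun z => {R | ∀ Y, Y z.1 = false →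
    ¬ ∀ q, gr (col R z.1) q ↔ app (E z.2) (gr (sel R Y)) q}
  have hd : ∀ z, Dense (interior (Gd z)) := by
    intro z
    rw [dense_iff_inter_open]
    rintro U hU ⟨R₀, hR₀⟩
    obtain ⟨l, hl⟩ := exists_list_of_isOpen hU hR₀
    obtain ⟨R₁, m₁, -, h2, -, h4⟩ := ext_list z.1 ((l.map (fun i => i.1 + i.2.2)).sum + z.1 + 1)
      (by omega) (E z.2) R₀ (allStr ((l.map (fun i => i.1 + i.2.2)).sum + z.1 + 1))
    refine ⟨R₁, hl _ fun i hi => ?_, ?_⟩
    · have := List.le_sum_of_mem (List.mem_map_of_mem (f := fun i => i.1 + i.2.2) hi)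
      exact h2 i.1 i.2.1 i.2.2 (by omega) (by omega)
    · refine mem_interior.2 ⟨_, ?_, isOpen_agree m₁ R₁, fun _ _ _ _ _ => rfl⟩
      intro R hR Y hY
      exact h4 _ (mem_allStr.2 (by simp [pre])) R hR Y rfl hY
  obtain ⟨R, hR⟩ := (dense_iInter_of_isOpen (fun z => isOpen_interior) hd).nonempty
  refine ⟨R, fun Y n => ⟨?_, fun h => ?_⟩⟩
  · rintro ⟨W, hW, h⟩
    obtain ⟨e, rfl⟩ := hE' W hW
    by_contra hY
    exact interior_subset (mem_iInter.1 hR (n, e)) Y (by simpa using hY) (h ())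
  · exact Red.comp (f := fun j => (n, j)) ((const n).pair Primrec.id)
      (fun j => by simp [col, sel, h])

theorem red_sel (R : ℕ × Bool × ℕ → Bool) (Y : ℕ → Bool) : Red (sel R Y) (Sum.elim Y R) := by
  have : En (fun _ : Unit => gr (Sum.elim Y R)) (fun _ (z : ((ℕ × ℕ) × Bool) × Bool) =>
      gr (Sum.elim Y R) (Sum.inl z.1.1.1, z.2) ∧
        gr (Sum.elim Y R) (Sum.inr (z.1.1.1, z.2, z.1.1.2), z.1.2)) :=
    (En.self.comp ((sumInl.comp (fst.comp (fst.comp fst))).pair snd)).and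
      (En.self.comp ((sumInr.comp ((fst.comp (fst.comp fst)).pair
        (snd.pair (snd.comp (fst.comp fst))))).pair (snd.comp fst)))
  refine this.ex.of_eq ?_
  rintro _ ⟨i, b⟩
  simp [gr, sel]

theorem candidates (π : Degree ≃o Degree) (ι : Type) [Primcodable ι] :
    ∃ F : ℕ → (ι → Bool) → ℕ → Bool, (∀ e, Measurable (F e)) ∧
      ∀ x (Y : ℕ → Bool), deg Y = π (deg x) → ∃ e, F e x = Y := by
  classical
  obtain ⟨R, hR⟩ := exists_code
  obtain ⟨E, hE, hE'⟩ := exists_enum_primrecPred ((ℕ × List ((ι ⊕ ℕ) × Bool)) × (ℕ × Bool))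
  let C := rep (π.symm (deg R))
  let dec : ℕ → (ι → Bool) → ℕ → Bool := fun e x i =>
    decide (app (E e) (gr (Sum.elim x C)) (i, true))
  have hdec : ∀ e, Measurable (dec e) := fun e => measurable_pi_lambda _ fun i =>
    measurable_decide (measurable_app (measurable_sumElim measurable_id measurable_const) _ _)
  refine ⟨fun e x n => decide (π.symm (deg (col R n)) ≤ deg (dec e x)), fun e => ?_, ?_⟩
  · exact measurable_pi_lambda _ fun n => measurable_decide
      (measurableSet_setOfPred.1 ((MD.const _).le (MD.of_deg (hdec e))))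
  · intro x Y hY
    have h1 : deg (sel R Y) ≤ π (deg x) ⊔ deg R := by
      rw [← hY, ← deg_sum]; exact deg_le.2 (red_sel R Y)
    have h2 : deg (rep (π.symm (deg (sel R Y)))) ≤ deg (Sum.elim x C) := by
      rw [deg_rep, deg_sum, deg_rep]
      have := π.symm.monotone h1
      rwa [π.symm.map_sup, π.symm_apply_apply] at this
    obtain ⟨W, hW, h3⟩ := deg_le.1 h2
    obtain ⟨e, rfl⟩ := hE' W hW
    have h4 : dec e x = rep (π.symm (deg (sel R Y))) := by
      funext i
      simp only [dec, ← h3 () (i, true), gr]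
      simp
    refine ⟨e, funext fun n => ?_⟩
    simp only [h4, deg_rep, π.symm.le_iff_le, deg_le, hR]
    simp

end Vale.Agent.P327
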