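import Mathlib

namespace Vale.Agent.P327

open Classical in
/-- The characteristic function of a set of naturals, as a (total) partial function. -/
noncomputable def chi (A : Set ℕ) : ℕ →. ℕ := fun n => Part.some (if n ∈ A then 1 else 0)

/-- Turing reducibility of sets: the characteristic function of `A` is recursive in the
characteristic function of `B`. -/
def TLe (A B : Set ℕ) : Prop := TuringReducible (chi A) (chi B)

/-- Turing equivalence of sets of naturals. -/
def tSetoid : Setoid (Set ℕ) where
  r A B := TLe A B ∧ TLe B A
  iseqv :=
    ⟨fun _ => ⟨TuringReducible.rfl, TuringReducible.rfl⟩, fun h => ⟨h.2, h.1⟩,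
      fun h k => ⟨TuringReducible.trans h.1 k.1, TuringReducible.trans k.2 h.2⟩⟩

/-- The Turing degrees. -/
def Degree : Type := Quotient tSetoid

/-- The degree of a set. -/
def degOf (A : Set ℕ) : Degree := Quotient.mk tSetoid A

/-- The order of the Turing degrees. -/
def DLe (a b : Degree) : Prop := ∃ A B : Set ℕ, degOf A = a ∧ degOf B = b ∧ TLe A B

end Vale.Agent.P327
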