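import Vale.Agent.P327.Tur

/-! Degrees of Boolean functions on arbitrary coded index types. -/

namespace Vale.Agent.P327

open Primrec MeasureTheory

variable {ι κ ν : Type} [Primcodable ι] [Primcodable κ] [Primcodable ν]

theorem Red.refl (x : ι → Bool) : Red x x := En.self

theorem Red.trans {x : ι → Bool} {y : κ → Bool} {z : ν → Bool} (h : Red x y) (k : Red y z) :
    Red x z := En.trans h k

theorem Red.op2 {x : ι → Bool} {y : κ → Bool} {f g : ι → κ} {op : ι × Bool × Bool → Bool}
    (hf : Primrec f) (hg : Primrec g) (hop : Primrec op)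
    (h : ∀ i, x i = op (i, y (f i), y (g i))) : Red x y := by
  have : En (fun _ : Unit => gr y) (fun _ (z : (ι × Bool) × (Bool × Bool)) =>
      gr y (f z.1.1, z.2.1) ∧ gr y (g z.1.1, z.2.2) ∧ op (z.1.1, z.2) = z.1.2) :=
    (En.self.comp ((hf.comp (fst.comp fst)).pair (fst.comp snd))).and
      ((En.self.comp ((hg.comp (fst.comp fst)).pair (snd.comp snd))).and
        (En.prim (Primrec.eq.comp (hop.comp ((fst.comp fst).pair snd)) (snd.comp fst))))
  refine this.ex.of_eq ?_
  rintro _ ⟨i, b⟩
  simp [gr, h]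

theorem Red.comp {x : ι → Bool} {y : κ → Bool} {f : ι → κ} (hf : Primrec f)
    (h : ∀ i, x i = y (f i)) : Red x y :=
  Red.op2 (op := fun z => z.2.1) hf hf (fst.comp snd) h

theorem Red.prim {x : ι → Bool} (hx : Primrec x) (y : κ → Bool) : Red x y :=
  En.prim (Primrec.eq.comp (hx.comp fst) snd)

theorem Red.inl (x : ι → Bool) (y : κ → Bool) : Red x (Sum.elim x y) :=
  Red.comp sumInl (fun _ => rfl)

theorem Red.inr (x : ι → Bool) (y : κ → Bool) : Red y (Sum.elim x y) :=
  Red.comp sumInr (fun _ => rfl)

theorem en_gr_sum {T β : Type} [Primcodable β] {G : T → β → Prop} {x : T → ι → Bool}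
    {y : T → κ → Bool} (hx : En G (fun t => gr (x t))) (hy : En G (fun t => gr (y t))) :
    En G (fun t => gr (Sum.elim (x t) (y t))) := by
  have hf : Primrec (fun q : (ι ⊕ κ) × Bool =>
      (Sum.casesOn q.1 (fun i => Sum.inl (i, q.2)) (fun k => Sum.inr (k, q.2)) :
        (ι × Bool) ⊕ (κ × Bool))) :=
    sumCasesOn fst (sumInl.comp (snd.pair (snd.comp fst))).to₂
      (sumInr.comp (snd.pair (snd.comp fst))).to₂
  refine ((hx.sum hy).comp hf).of_eq ?_
  rintro t ⟨i | k, b⟩ <;> simp [gr]

theorem Red.sum {x : ι → Bool} {y : κ → Bool} {z : ν → Bool} (h : Red x z) (k : Red y z) :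
    Red (Sum.elim x y) z := en_gr_sum h k

theorem Red.add (x y : ι → Bool) : Red (x + y) (Sum.elim x y) :=
  Red.op2 (op := fun z => xor z.2.1 z.2.2) sumInl sumInr
    ((dom_finite (fun z : Bool × Bool => xor z.1 z.2)).comp snd) (fun _ => rfl)

/-- Transport to the index type of naturals. -/
def hat (x : ι → Bool) : ℕ → Bool := fun n => ((Encodable.decode n).map x).getD false

theorem hat_encode (x : ι → Bool) (i : ι) : hat x (Encodable.encode i) = x i := by simp [hat]

theorem red_hat (x : ι → Bool) : Red x (hat x) :=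
  Red.comp Primrec.encode (fun i => (hat_encode x i).symm)

theorem hat_red (x : ι → Bool) : Red (hat x) x := by
  have h1 : En (fun _ : Unit => gr x) (fun _ (z : (ℕ × Bool) × ι) =>
      Encodable.decode z.1.1 = some z.2 ∧ gr x (z.2, z.1.2)) :=
    (En.prim (Primrec.eq.comp (Primrec.decode.comp (fst.comp fst)) (option_some.comp snd))).and
      (En.self.comp (snd.pair (snd.comp fst)))
  have h2 : PrimrecPred (fun z : ℕ × Bool => Encodable.decode (α := ι) z.1 = none ∧ z.2 = false) :=
    (Primrec.eq.comp (Primrec.decode.comp fst) (const none)).and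
      (Primrec.eq.comp snd (const false))
  refine (h1.ex.or (En.prim h2)).of_eq ?_
  rintro _ ⟨n, b⟩
  simp only [gr, hat]
  cases Encodable.decode (α := ι) n <;> simp [eq_comm]

/-- The degree of a Boolean function. -/
def deg (x : ι → Bool) : Degree := degOf {n | hat x n = true}

theorem ind_setOf (x : ℕ → Bool) : ind {n | x n = true} = x := by
  funext n; simp [ind]

theorem dle_degOf (A B : Set ℕ) : DLe (degOf A) (degOf B) ↔ TLe A B := by
  constructor
  · rintro ⟨A', B', h1, h2, h3⟩
    have e1 := Quotient.exact h1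
    have e2 := Quotient.exact h2
    exact TuringReducible.trans e1.2 (TuringReducible.trans h3 e2.1)
  · intro h; exact ⟨A, B, rfl, rfl, h⟩

instance : PartialOrder Degree where
  le := DLe
  le_refl a := by
    obtain ⟨A, rfl⟩ := Quotient.exists_rep a
    exact (dle_degOf A A).2 TuringReducible.rfl
  le_trans a b c := by
    obtain ⟨A, rfl⟩ := Quotient.exists_rep a
    obtain ⟨B, rfl⟩ := Quotient.exists_rep b
    obtain ⟨C, rfl⟩ := Quotient.exists_rep c
    intro h k
    exact (dle_degOf A C).2 (TuringReducible.trans ((dle_degOf A B).1 h) ((dle_degOf B C).1 k))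
  le_antisymm a b := by
    obtain ⟨A, rfl⟩ := Quotient.exists_rep a
    obtain ⟨B, rfl⟩ := Quotient.exists_rep b
    intro h k
    exact Quotient.sound ⟨(dle_degOf A B).1 h, (dle_degOf B A).1 k⟩

theorem deg_le {x : ι → Bool} {y : κ → Bool} : deg x ≤ deg y ↔ Red x y := by
  show DLe _ _ ↔ _
  unfold deg
  rw [dle_degOf, tle_iff, ind_setOf, ind_setOf]
  exact ⟨fun h => (red_hat x).trans (h.trans (hat_red y)),
    fun h => (hat_red x).trans (h.trans (red_hat y))⟩

theorem deg_surj (a : Degree) : ∃ x : ℕ → Bool, deg x = a := by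
  obtain ⟨A, rfl⟩ := Quotient.exists_rep a
  refine ⟨ind A, ?_⟩
  unfold deg
  congr 1
  ext n
  simp [hat, ind]

/-- A representative of a degree. -/
noncomputable def rep (a : Degree) : ℕ → Bool := (deg_surj a).choose

theorem deg_rep (a : Degree) : deg (rep a) = a := (deg_surj a).choose_spec

noncomputable instance : SemilatticeSup Degree where
  sup a b := deg (Sum.elim (rep a) (rep b))
  le_sup_left a b := by
    conv_lhs => rw [← deg_rep a]
    exact deg_le.2 (Red.inl _ _)
  le_sup_right a b := by
    conv_lhs => rw [← deg_rep b]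
    exact deg_le.2 (Red.inr _ _)
  sup_le a b c h k := by
    rw [← deg_rep a, ← deg_rep c] at h
    rw [← deg_rep b, ← deg_rep c] at k
    rw [← deg_rep c]
    exact deg_le.2 ((deg_le.1 h).sum (deg_le.1 k))

instance : OrderBot Degree where
  bot := deg (fun _ : ℕ => false)
  bot_le a := by
    rw [← deg_rep a]
    exact deg_le.2 (Red.prim (const false) _)

theorem deg_sum (x : ι → Bool) (y : κ → Bool) : deg (Sum.elim x y) = deg x ⊔ deg y := by
  refine le_antisymm ?_ (sup_le (deg_le.2 (Red.inl _ _)) (deg_le.2 (Red.inr _ _)))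
  rw [← deg_rep (deg x ⊔ deg y)]
  refine deg_le.2 (Red.sum (deg_le.1 ?_) (deg_le.1 ?_)) <;> rw [deg_rep]
  exacts [le_sup_left, le_sup_right]

theorem deg_hat (x : ι → Bool) : deg (hat x) = deg x :=
  le_antisymm (deg_le.2 (hat_red x)) (deg_le.2 (red_hat x))

theorem deg_add_le (x y : ι → Bool) : deg (x + y) ≤ deg x ⊔ deg y := by
  rw [← deg_sum]; exact deg_le.2 (Red.add x y)

theorem deg_prim_le {x : ι → Bool} (hx : Primrec x) (a : Degree) : deg x ≤ a := by
  rw [← deg_rep a]; exact deg_le.2 (Red.prim hx _)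

theorem add_self_fun {α : Type} (x : α → Bool) : x + x = 0 := by
  funext i
  show xor (x i) (x i) = false
  simp

theorem deg_add_prim {d : ι → Bool} (hd : Primrec d) (x : ι → Bool) : deg (x + d) = deg x := by
  have key : ∀ x : ι → Bool, deg (x + d) ≤ deg x := fun x =>
    (deg_add_le x d).trans (sup_le le_rfl (deg_prim_le hd _))
  refine le_antisymm (key x) ?_
  have := key (x + d)
  rwa [add_assoc, add_self_fun, add_zero] at this

/-! Measurability. -/

theorem isOpen_gr_list {κ : Type} (l : List (κ × Bool)) :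
    IsOpen {y : κ → Bool | ∀ q ∈ l, gr y q} := by
  induction l with
  | nil => simp
  | cons q l ih =>
    have h1 : IsOpen {y : κ → Bool | y q.1 = q.2} :=
      IsOpen.preimage (f := fun y : κ → Bool => y q.1) (continuous_apply q.1)
        (isOpen_discrete {q.2})
    convert h1.inter ih using 1
    ext y; simp [gr]

theorem isOpen_app {κ α : Type} (W : (ℕ × List (κ × Bool)) × α → Prop) (a : α) :
    IsOpen {y : κ → Bool | app W (gr y) a} := by
  have : {y : κ → Bool | app W (gr y) a} =
      ⋃ (w : ℕ) (l : List (κ × Bool)) (_ : W ((w, l), a)), {y | ∀ q ∈ l, gr y q} := by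
    ext y; simp only [app, Set.mem_ofPred_eq, Set.mem_iUnion, exists_prop]
    exact exists_congr fun w => exists_congr fun l => and_comm
  rw [this]
  exact isOpen_iUnion fun w => isOpen_iUnion fun l => isOpen_iUnion fun _ => isOpen_gr_list l

theorem measurable_app {Ω α : Type} [MeasurableSpace Ω] {F : Ω → κ → Bool} (hF : Measurable F)
    (W : (ℕ × List (κ × Bool)) × α → Prop) (a : α) : Measurable (fun ω => app W (gr (F ω)) a) :=
  measurableSet_setOfPred.1 (hF (isOpen_app W a).measurableSet)

theorem measurable_gr {Ω ι : Type} [MeasurableSpace Ω] {F : Ω → ι → Bool} (hF : Measurable F)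
    (q : ι × Bool) : Measurable (fun ω => gr (F ω) q) :=
  measurableSet_setOfPred.1 (((measurable_pi_apply q.1).comp hF) (measurableSet_singleton q.2))

theorem measurable_red {Ω : Type} [MeasurableSpace Ω] {F : Ω → ι → Bool} {G : Ω → κ → Bool}
    (hF : Measurable F) (hG : Measurable G) : Measurable (fun ω => Red (F ω) (G ω)) := by
  obtain ⟨E, hE, hE'⟩ := exists_enum_primrecPred ((ℕ × List (κ × Bool)) × (ι × Bool))
  have : (fun ω => Red (F ω) (G ω)) =
      fun ω => ∃ n, ∀ q, gr (F ω) q ↔ app (E n) (gr (G ω)) q := by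
    funext ω
    apply propext
    constructor
    · rintro ⟨W, hW, h⟩
      obtain ⟨n, rfl⟩ := hE' W hW
      exact ⟨n, h ()⟩
    · rintro ⟨n, h⟩
      exact ⟨E n, hE n, fun _ => h⟩
  rw [this]
  exact Measurable.exists fun n => Measurable.forall fun q =>
    (measurable_gr hF q).iff (measurable_app hG _ q)

theorem measurable_hat : Measurable (hat : (ι → Bool) → ℕ → Bool) := by
  refine measurable_pi_lambda _ fun n => ?_
  unfold hat
  cases Encodable.decode (α := ι) n with
  | none => exact measurable_const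
  | some i => exact measurable_pi_apply i

theorem measurable_sumElim {Ω ι κ : Type} [MeasurableSpace Ω] {F : Ω → ι → Bool}
    {G : Ω → κ → Bool} (hF : Measurable F) (hG : Measurable G) :
    Measurable (fun ω => Sum.elim (F ω) (G ω)) := by
  refine measurable_pi_lambda _ fun i => ?_
  rcases i with i | i
  · exact (measurable_pi_apply i).comp hF
  · exact (measurable_pi_apply i).comp hG

open Classical in
theorem measurable_decide {Ω : Type} [MeasurableSpace Ω] {p : Ω → Prop} (hp : Measurable p) :
    Measurable (fun ω => decide (p ω)) :=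
  (measurable_of_countable (fun P : Prop => decide P)).comp hp

/-- Measurable degree valued functions. -/
def MD {Ω : Type} [MeasurableSpace Ω] (f : Ω → Degree) : Prop :=
  ∃ F : Ω → ℕ → Bool, Measurable F ∧ ∀ ω, f ω = deg (F ω)

namespace MD
variable {Ω : Type} [MeasurableSpace Ω]

theorem of_deg {F : Ω → ι → Bool} (hF : Measurable F) : MD (fun ω => deg (F ω)) :=
  ⟨fun ω => hat (F ω), measurable_hat.comp hF, fun _ => (deg_hat _).symm⟩

theorem const (a : Degree) : MD (fun _ : Ω => a) :=
  ⟨fun _ => rep a, measurable_const, fun _ => (deg_rep a).symm⟩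

theorem comp {Ω' : Type} [MeasurableSpace Ω'] {f : Ω → Degree} (h : MD f) {g : Ω' → Ω}
    (hg : Measurable g) : MD (fun ω => f (g ω)) := by
  obtain ⟨F, hF, h⟩ := h
  exact ⟨fun ω => F (g ω), hF.comp hg, fun ω => h _⟩

theorem sup {f g : Ω → Degree} (hf : MD f) (hg : MD g) : MD (fun ω => f ω ⊔ g ω) := by
  obtain ⟨F, hF, hf⟩ := hf
  obtain ⟨G, hG, hg⟩ := hg
  have := of_deg (measurable_sumElim hF hG)
  simpa only [deg_sum, ← hf, ← hg] using this

theorem le {f g : Ω → Degree} (hf : MD f) (hg : MD g) : MeasurableSet {ω | f ω ≤ g ω} := by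
  obtain ⟨F, hF, hf⟩ := hf
  obtain ⟨G, hG, hg⟩ := hg
  have := measurableSet_setOfPred.2 (measurable_red hF hG)
  simpa only [hf, hg, deg_le] using this

end MD

end Vale.Agent.P327
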