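import Mathlib

/-! Uniform enumeration reducibility. -/

namespace Vale.Agent.P327

open Primrec

/-- Application of an enumeration operator. -/
def app {β α : Type} (W : (ℕ × List β) × α → Prop) (G : β → Prop) (a : α) : Prop :=
  ∃ (w : ℕ) (l : List β), (∀ q ∈ l, G q) ∧ W ((w, l), a)

/-- `p t` is enumerated from `G t`, uniformly in `t`. -/
def En {T β α : Type} [Primcodable β] [Primcodable α] (G : T → β → Prop) (p : T → α → Prop) :
    Prop :=
  ∃ W : (ℕ × List β) × α → Prop, PrimrecPred W ∧ ∀ t a, p t a ↔ app W (G t) a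

variable {T β α γ δ : Type} [Primcodable β] [Primcodable α] [Primcodable γ] [Primcodable δ]

theorem primrec_mem : PrimrecRel (fun (a : α) (l : List α) => a ∈ l) := by
  have := (PrimrecRel.exists_mem_list (Primrec.eq (α := α))).swap
  exact this.of_eq (by intro a l; simp [Function.swap])

theorem pp_true : PrimrecPred (fun _ : α => True) :=
  (Primrec.eq.comp (Primrec.const 0) (Primrec.const (0 : ℕ))).of_eq (by simp)

theorem pp_const (P : Prop) : PrimrecPred (fun _ : α => P) := by
  by_cases h : P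
  · exact pp_true.of_eq (by simp [h])
  · exact pp_true.not.of_eq (by simp [h])

theorem pp_forall_mem {f : α → List γ} {R : α × γ → Prop} (hf : Primrec f) (hR : PrimrecPred R) :
    PrimrecPred (fun a => ∀ c ∈ f a, R (a, c)) := by
  have h1 : PrimrecRel (fun (c : γ) (a : α) => R (a, c)) :=
    hR.comp (Primrec.snd.pair Primrec.fst)
  exact (PrimrecRel.forall_mem_list h1).comp hf Primrec.id

theorem pp_exists_mem {f : α → List γ} {R : α × γ → Prop} (hf : Primrec f) (hR : PrimrecPred R) :
    PrimrecPred (fun a => ∃ c ∈ f a, R (a, c)) := by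
  have h1 : PrimrecRel (fun (c : γ) (a : α) => R (a, c)) :=
    hR.comp (Primrec.snd.pair Primrec.fst)
  exact (PrimrecRel.exists_mem_list h1).comp hf Primrec.id

namespace En

variable {G : T → β → Prop}

theorem of_eq {p q : T → α → Prop} (h : En G p) (e : ∀ t a, p t a ↔ q t a) : En G q := by
  obtain ⟨W, hW, h⟩ := h
  exact ⟨W, hW, fun t a => (e t a).symm.trans (h t a)⟩

theorem mk' {p : T → α → Prop} (U : γ × α → List β) (V : γ × α → Prop) (hU : Primrec U)
    (hV : PrimrecPred V) (h : ∀ t a, p t a ↔ ∃ c, (∀ q ∈ U (c, a), G t q) ∧ V (c, a)) :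
    En G p := by
  refine ⟨fun z => ∃ c ∈ (Encodable.decode (α := γ) z.1.1).toList,
    z.1.2 = U (c, z.2) ∧ V (c, z.2), ?_, fun t a => (h t a).trans ?_⟩
  · refine pp_exists_mem (R := fun y : ((ℕ × List β) × α) × γ =>
      y.1.1.2 = U (y.2, y.1.2) ∧ V (y.2, y.1.2))
      (Primrec.optionToList.comp (Primrec.decode.comp (fst.comp fst))) ?_
    exact (Primrec.eq.comp (snd.comp (fst.comp fst)) (hU.comp (snd.pair (snd.comp fst)))).and
      (hV.comp (snd.pair (snd.comp fst)))
  · constructor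
    · rintro ⟨c, h1, h2⟩
      exact ⟨Encodable.encode c, U (c, a), h1, c, by simp, rfl, h2⟩
    · rintro ⟨w, l, h1, c, -, h3, h2⟩
      exact ⟨c, fun q hq => h1 q (by rw [show l = U (c, a) from h3]; exact hq), h2⟩

theorem self : En G G :=
  mk' (γ := Unit) (fun z => [z.2]) (fun _ => True)
    (Primrec.list_cons.comp snd (const [])) pp_true (by simp)

theorem prim {p : α → Prop} (hp : PrimrecPred p) : En G (fun _ => p) :=
  mk' (γ := Unit) (fun _ => []) (fun z => p z.2) (const []) (hp.comp snd) (by simp)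

theorem ofApp {W : (ℕ × List β) × α → Prop} (hW : PrimrecPred W) :
    En G (fun t => app W (G t)) := ⟨W, hW, fun _ _ => Iff.rfl⟩

theorem comp {p : T → α → Prop} (h : En G p) {f : γ → α} (hf : Primrec f) :
    En G (fun t c => p t (f c)) := by
  obtain ⟨W, hW, h⟩ := h
  exact ⟨fun z => W (z.1, f z.2), hW.comp (fst.pair (hf.comp snd)), fun t c => h t (f c)⟩

theorem reindex {T' : Type} {p : T → α → Prop} (h : En G p) (f : T' → T) :
    En (fun t => G (f t)) (fun t => p (f t)) := by
  obtain ⟨W, hW, h⟩ := h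
  exact ⟨W, hW, fun t c => h (f t) c⟩

theorem ex {p : T → α × γ → Prop} (h : En G p) : En G (fun t a => ∃ c, p t (a, c)) := by
  obtain ⟨W, hW, h⟩ := h
  refine mk' (γ := (ℕ × List β) × γ) (fun z => z.1.1.2) (fun z => W (z.1.1, z.2, z.1.2))
    (snd.comp (fst.comp fst)) (hW.comp ((fst.comp fst).pair (snd.pair (snd.comp fst)))) ?_
  intro t a
  simp only [h, app]
  constructor
  · rintro ⟨c, w, l, h1, h2⟩; exact ⟨((w, l), c), h1, h2⟩
  · rintro ⟨⟨⟨w, l⟩, c⟩, h1, h2⟩; exact ⟨c, w, l, h1, h2⟩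

theorem and {p q : T → α → Prop} (hp : En G p) (hq : En G q) :
    En G (fun t a => p t a ∧ q t a) := by
  obtain ⟨W, hW, hp⟩ := hp
  obtain ⟨V, hV, hq⟩ := hq
  refine mk' (γ := (ℕ × List β) × (ℕ × List β)) (fun z => z.1.1.2 ++ z.1.2.2)
    (fun z => W (z.1.1, z.2) ∧ V (z.1.2, z.2))
    (list_append.comp (snd.comp (fst.comp fst)) (snd.comp (snd.comp fst)))
    ((hW.comp ((fst.comp fst).pair snd)).and (hV.comp ((snd.comp fst).pair snd))) ?_
  intro t a
  simp only [hp, hq, app, List.mem_append]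
  constructor
  · rintro ⟨⟨w, l, h1, h2⟩, w', l', h3, h4⟩
    exact ⟨((w, l), (w', l')), fun q hq => hq.elim (h1 q) (h3 q), h2, h4⟩
  · rintro ⟨⟨⟨w, l⟩, w', l'⟩, h1, h2, h3⟩
    exact ⟨⟨w, l, fun q hq => h1 q (Or.inl hq), h2⟩, w', l', fun q hq => h1 q (Or.inr hq), h3⟩

theorem or {p q : T → α → Prop} (hp : En G p) (hq : En G q) :
    En G (fun t a => p t a ∨ q t a) := by
  obtain ⟨W, hW, hp⟩ := hp
  obtain ⟨V, hV, hq⟩ := hq
  refine ⟨fun z => W z ∨ V z, hW.or hV, ?_⟩
  intro t a
  simp only [hp, hq, app]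
  constructor
  · rintro (⟨w, l, h1, h2⟩ | ⟨w, l, h1, h2⟩)
    · exact ⟨w, l, h1, Or.inl h2⟩
    · exact ⟨w, l, h1, Or.inr h2⟩
  · rintro ⟨w, l, h1, h2 | h2⟩
    · exact Or.inl ⟨w, l, h1, h2⟩
    · exact Or.inr ⟨w, l, h1, h2⟩

theorem all {p : T → α × γ → Prop} (h : En G p) {f : α → List γ} (hf : Primrec f) :
    En G (fun t a => ∀ c ∈ f a, p t (a, c)) := by
  obtain ⟨W, hW, h⟩ := h
  refine mk' (γ := List (ℕ × List β)) (fun z => z.1.flatMap Prod.snd)
    (fun z => ∀ c ∈ f z.2, ∃ y ∈ z.1, W (y, z.2, c))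
    (list_flatMap fst (snd.comp snd).to₂) ?_ ?_
  · refine pp_forall_mem (R := fun y : (List (ℕ × List β) × α) × γ =>
      ∃ x ∈ y.1.1, W (x, y.1.2, y.2)) (hf.comp snd) ?_
    exact pp_exists_mem (R := fun y : ((List (ℕ × List β) × α) × γ) × (ℕ × List β) =>
      W (y.2, y.1.1.2, y.1.2)) (fst.comp fst)
      (hW.comp (snd.pair ((snd.comp (fst.comp fst)).pair (snd.comp fst))))
  · intro t a
    simp only [h, app, List.mem_flatMap]
    constructor
    · intro H
      choose w l h1 h2 using H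
      refine ⟨(f a).attach.map (fun c => (w c.1 c.2, l c.1 c.2)), ?_, ?_⟩
      · rintro q ⟨y, hy, hq⟩
        obtain ⟨c, -, rfl⟩ := List.mem_map.1 hy
        exact h1 _ _ q hq
      · intro c hc
        exact ⟨_, List.mem_map.2 ⟨⟨c, hc⟩, List.mem_attach _ _, rfl⟩, h2 c hc⟩
    · rintro ⟨D, h1, h2⟩ c hc
      obtain ⟨y, hy, hW⟩ := h2 c hc
      exact ⟨y.1, y.2, fun q hq => h1 q ⟨y, hy, hq⟩, hW⟩

theorem trans {H : T → γ → Prop} {p : T → α → Prop} (hp : En G p) (hG : En H G) : En H p := by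
  obtain ⟨W, hW, hp⟩ := hp
  have h1 : En H (fun t (z : α × (ℕ × List β)) => (∀ q ∈ z.2.2, G t q) ∧ W (z.2, z.1)) :=
    ((hG.comp snd).all (snd.comp snd)).and (prim (hW.comp (snd.pair fst)))
  refine h1.ex.of_eq ?_
  intro t a
  simp [hp, app]

theorem sum {p : T → α → Prop} {q : T → γ → Prop} (hp : En G p) (hq : En G q) :
    En G (fun t => Sum.elim (p t) (q t)) := by
  have h1 : En G (fun t (z : (α ⊕ γ) × α) => z.1 = Sum.inl z.2 ∧ p t z.2) :=
    (prim (Primrec.eq.comp fst (sumInl.comp snd))).and (hp.comp snd)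
  have h2 : En G (fun t (z : (α ⊕ γ) × γ) => z.1 = Sum.inr z.2 ∧ q t z.2) :=
    (prim (Primrec.eq.comp fst (sumInr.comp snd))).and (hq.comp snd)
  refine (h1.ex.or h2.ex).of_eq ?_
  rintro t (a | c) <;> simp

open Classical in
theorem count {p : T → α × γ → Prop} (h : En G p) {f : α → List γ} (hf : Primrec f)
    {g : α → ℕ} (hg : Primrec g) :
    En G (fun t a => g a < (f a).countP (fun c => decide (p t (a, c)))) := by
  have h1 : En G (fun t (z : α × List γ) => (∀ c ∈ z.2, p t (z.1, c)) ∧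
      g z.1 < ((f z.1).filter (fun c => decide (c ∈ z.2))).length) := by
    refine ((h.comp ((fst.comp fst).pair snd)).all snd).and (prim ?_)
    refine nat_lt.comp (hg.comp fst) (list_length.comp ?_)
    exact (PrimrecRel.listFilter (primrec_mem (α := γ))).comp (hf.comp fst) snd
  refine h1.ex.of_eq ?_
  intro t a
  constructor
  · rintro ⟨S, h1, h2⟩
    refine h2.trans_le ?_
    rw [← List.countP_eq_length_filter]
    refine List.countP_mono_left ?_
    intro c _ hc
    simpa using h1 c (by simpa using hc)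
  · intro h2
    refine ⟨(f a).filter (fun c => decide (p t (a, c))), fun c hc => ?_, ?_⟩
    · simpa using (List.mem_filter.1 hc).2
    · refine h2.trans_le ?_
      rw [← List.countP_eq_length_filter]
      refine List.countP_mono_left ?_
      intro c hc hc'
      simpa [hc] using hc'

/-- Recursion theorem for enumeration operators. -/
theorem fix {Φ : T → (α → Prop) → α → Prop}
    (h : En (fun z : T × (α → Prop) => Sum.elim (G z.1) z.2) (fun z => Φ z.1 z.2)) :
    ∃ P : T → α → Prop, En G P ∧ ∀ t a, P t a ↔ Φ t (P t) a := by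
  obtain ⟨W, hW, h⟩ := h
  let Val : T → List ((ℕ × List (β ⊕ α)) × α) → Prop := fun t D =>
    ∀ s ∈ D, W s ∧ ∀ r ∈ s.1.2, Sum.elim (G t) (fun b => ∃ s' ∈ D, s'.2 = b) r
  have hmono : ∀ t D D', Val t D → Val t D' → Val t (D ++ D') := by
    intro t D D' h1 h2 s hs
    rcases List.mem_append.1 hs with hs | hs
    · refine ⟨(h1 s hs).1, fun r hr => ?_⟩
      have := (h1 s hs).2 r hr
      rcases r with r | r
      · exact this
      · obtain ⟨s', h3, h4⟩ := this
        exact ⟨s', List.mem_append_left _ h3, h4⟩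
    · refine ⟨(h2 s hs).1, fun r hr => ?_⟩
      have := (h2 s hs).2 r hr
      rcases r with r | r
      · exact this
      · obtain ⟨s', h3, h4⟩ := this
        exact ⟨s', List.mem_append_right _ h3, h4⟩
  refine ⟨fun t a => ∃ D, Val t D ∧ ∃ s ∈ D, s.2 = a, ?_, ?_⟩
  · have e1 : En G (fun t (z : (List ((ℕ × List (β ⊕ α)) × α) × (β ⊕ α)) × β) =>
        z.1.2 = Sum.inl z.2 ∧ G t z.2) :=
      (prim (Primrec.eq.comp (snd.comp fst) (sumInl.comp snd))).and (self.comp snd)
    have e2 : PrimrecPred (fun (z : List ((ℕ × List (β ⊕ α)) × α) × (β ⊕ α)) =>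
        ∃ s' ∈ z.1, z.2 = Sum.inr s'.2) :=
      pp_exists_mem (R := fun y : (List ((ℕ × List (β ⊕ α)) × α) × (β ⊕ α)) ×
        ((ℕ × List (β ⊕ α)) × α) => y.1.2 = Sum.inr y.2.2) fst
        (Primrec.eq.comp (snd.comp fst) (sumInr.comp (snd.comp snd)))
    have e3 : En G (fun t (z : List ((ℕ × List (β ⊕ α)) × α) × (β ⊕ α)) =>
        Sum.elim (G t) (fun b => ∃ s' ∈ z.1, s'.2 = b) z.2) := by
      refine (e1.ex.or (prim e2)).of_eq ?_
      rintro t ⟨D, r | r⟩ <;> simp [eq_comm]
    have e4 : En G (fun t (z : List ((ℕ × List (β ⊕ α)) × α) × ((ℕ × List (β ⊕ α)) × α)) =>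
        W z.2 ∧ ∀ r ∈ z.2.1.2, Sum.elim (G t) (fun b => ∃ s' ∈ z.1, s'.2 = b) r) :=
      (prim (hW.comp snd)).and
        ((e3.comp ((fst.comp fst).pair snd)).all (snd.comp (fst.comp snd)))
    have e5 : En G Val := e4.all Primrec.id
    have e6 : PrimrecPred (fun (z : α × List ((ℕ × List (β ⊕ α)) × α)) =>
        ∃ s ∈ z.2, s.2 = z.1) :=
      pp_exists_mem (R := fun y : (α × List ((ℕ × List (β ⊕ α)) × α)) ×
        ((ℕ × List (β ⊕ α)) × α) => y.2.2 = y.1.1) snd
        (Primrec.eq.comp (snd.comp snd) (fst.comp fst))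
    exact ((e5.comp snd).and (prim e6)).ex
  · intro t a
    refine Iff.trans ?_ (h (t, fun a => ∃ D, Val t D ∧ ∃ s ∈ D, s.2 = a) a).symm
    constructor
    · rintro ⟨D, hD, s, hs, rfl⟩
      refine ⟨s.1.1, s.1.2, fun r hr => ?_, (hD s hs).1⟩
      have := (hD s hs).2 r hr
      rcases r with r | r
      · exact this
      · exact ⟨D, hD, this⟩
    · rintro ⟨w, l, h1, h2⟩
      have : ∃ D, Val t D ∧ ∀ r ∈ l, Sum.elim (G t) (fun b => ∃ s' ∈ D, s'.2 = b) r := by
        clear h2
        induction l with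
        | nil => exact ⟨[], by simp [Val], by simp⟩
        | cons r l ih =>
          obtain ⟨D, hD, h3⟩ := ih (fun q hq => h1 q (List.mem_cons_of_mem _ hq))
          have h4 := h1 r List.mem_cons_self
          rcases r with r | r
          · refine ⟨D, hD, fun q hq => ?_⟩
            rcases List.mem_cons.1 hq with rfl | hq
            · exact h4
            · exact h3 q hq
          · obtain ⟨D', hD', s, hs, rfl⟩ := h4
            refine ⟨D ++ D', hmono t D D' hD hD', fun q hq => ?_⟩
            rcases List.mem_cons.1 hq with rfl | hq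
            · exact ⟨s, List.mem_append_right _ hs, rfl⟩
            · have := h3 q hq
              rcases q with q | q
              · exact this
              · obtain ⟨s', h5, h6⟩ := this
                exact ⟨s', List.mem_append_left _ h5, h6⟩
      obtain ⟨D, hD, h3⟩ := this
      refine ⟨((w, l), a) :: D, ?_, _, List.mem_cons_self, rfl⟩
      have key : ∀ r, Sum.elim (G t) (fun b => ∃ s' ∈ D, s'.2 = b) r →
          Sum.elim (G t) (fun b => ∃ s' ∈ ((w, l), a) :: D, s'.2 = b) r := by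
        rintro (r | r) hr
        · exact hr
        · obtain ⟨s', h5, h6⟩ := hr
          exact ⟨s', List.mem_cons_of_mem _ h5, h6⟩
      intro s hs
      rcases List.mem_cons.1 hs with rfl | hs
      · exact ⟨h2, fun r hr => key r (h3 r hr)⟩
      · exact ⟨(hD s hs).1, fun r hr => key r ((hD s hs).2 r hr)⟩

theorem inl {H : T → γ → Prop} : En (fun t => Sum.elim (G t) (H t)) G :=
  (self (G := fun t => Sum.elim (G t) (H t))).comp sumInl

theorem inr {H : T → γ → Prop} : En (fun t => Sum.elim (G t) (H t)) H :=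
  (self (G := fun t => Sum.elim (G t) (H t))).comp sumInr

end En

theorem countable_primrecPred : {W : α → Prop | PrimrecPred W}.Countable := by
  classical
  have : ∀ W : {W : α → Prop | PrimrecPred W}, ∃ c : Nat.Partrec.Code,
      ∀ a, c.eval (Encodable.encode a) = Part.some (Encodable.encode (some (decide (W.1 a)))) := by
    rintro ⟨W, hW⟩
    have h1 := (PrimrecPred.decide hW)
    obtain ⟨c, hc⟩ := Nat.Partrec.Code.exists_code.1 (Nat.Partrec.of_primrec h1)
    exact ⟨c, fun a => by rw [hc]; simp⟩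
  choose c hc using this
  have hinj : Function.Injective c := by
    intro W W' h
    ext a
    have := (hc W a).symm.trans (h ▸ hc W' a)
    simpa using this
  exact Set.countable_coe_iff.1 hinj.countable

/-- An enumeration of all primitive recursive predicates. -/
theorem exists_enum_primrecPred (α : Type) [Primcodable α] :
    ∃ E : ℕ → α → Prop, (∀ n, PrimrecPred (E n)) ∧ ∀ W, PrimrecPred W → ∃ n, E n = W := by
  obtain ⟨E, hE⟩ := (countable_primrecPred (α := α)).exists_eq_range ⟨_, pp_true⟩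
  refine ⟨E, fun n => ?_, fun W hW => ?_⟩
  · have : E n ∈ {W : α → Prop | PrimrecPred W} := hE ▸ Set.mem_range_self n
    exact this
  · have : W ∈ Set.range E := hE ▸ hW
    exact this

end Vale.Agent.P327
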