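import Vale.Agent.P327.Act

/-! Spectral gap estimate for the ping-pong family. -/

namespace Vale.Agent.P327

open MeasureTheory Set Finset
open scoped symmDiff ENNReal

/-- Characters. -/
noncomputable def ch (φ : XX →+ Bool) : XX → ℝ := fun x => if φ x = true then -1 else 1

theorem ch_mul (φ ψ : XX →+ Bool) : ch φ * ch ψ = ch (φ + ψ) := by
  funext x
  have : (φ + ψ) x = xor (φ x) (ψ x) := rfl
  simp only [ch, Pi.mul_apply, this]
  cases φ x <;> cases ψ x <;> simp

theorem ch_zero : ch 0 = 1 := by funext x; simp [ch, bool_zero]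

theorem continuous_ch {φ : XX →+ Bool} (hφ : Continuous φ) : Continuous (ch φ) :=
  (continuous_of_discreteTopology (f := fun b : Bool => if b = true then (-1 : ℝ) else 1)).comp hφ

theorem integrable_cont {f : XX → ℝ} (hf : Continuous f) : Integrable f (mu _) :=
  hf.integrable_of_hasCompactSupport (HasCompactSupport.of_compactSpace f)

theorem integral_ch {φ : XX →+ Bool} (h0 : φ ≠ 0) : ∫ x, ch φ x ∂mu _ = 0 := by
  obtain ⟨y, hy⟩ := DFunLike.ne_iff.1 h0
  have hy' : φ y = true := by simpa [bool_zero] using hy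
  have h1 := integral_add_right_eq_self (μ := mu _) (ch φ) y
  have h2 : ∀ x, ch φ (x + y) = - ch φ x := by
    intro x
    have : φ (x + y) = xor (φ x) (φ y) := map_add φ x y
    simp only [ch, this, hy']
    cases φ x <;> simp
  simp only [h2, integral_neg] at h1
  linarith

theorem orth {I : Type} (s : Finset I) (ψ : I → XX →+ Bool) (hc : ∀ k ∈ s, Continuous (ψ k))
    (hinj : Set.InjOn ψ s) (a : I → ℝ) :
    ∫ x, (∑ k ∈ s, a k * ch (ψ k) x) ^ 2 ∂mu _ = ∑ k ∈ s, a k ^ 2 := by
  classical
  have h1 : ∀ x, (∑ k ∈ s, a k * ch (ψ k) x) ^ 2 =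
      ∑ k ∈ s, ∑ l ∈ s, a k * a l * ch (ψ k + ψ l) x := by
    intro x
    rw [sq, Finset.sum_mul_sum]
    refine Finset.sum_congr rfl fun k _ => Finset.sum_congr rfl fun l _ => ?_
    rw [← ch_mul, Pi.mul_apply]; ring
  have h2 : ∀ k ∈ s, ∀ l ∈ s, Integrable (fun x => a k * a l * ch (ψ k + ψ l) x) (mu _) :=
    fun k hk l hl => (integrable_cont (continuous_ch (φ := ψ k + ψ l)
      ((hc k hk).add (hc l hl)))).const_mul _
  simp only [h1]
  rw [integral_finsetSum _ fun k hk => integrable_finsetSum _ fun l hl => h2 k hk l hl]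
  refine Finset.sum_congr rfl fun k hk => ?_
  rw [integral_finsetSum _ fun l hl => h2 k hk l hl, Finset.sum_eq_single_of_mem k hk]
  · have : ψ k + ψ k = 0 := by
      ext x; show xor _ _ = false; simp
    rw [this, ch_zero]; simp [sq]
  · intro l hl hne
    rw [integral_const_mul, integral_ch, mul_zero]
    intro h
    apply hne
    refine hinj hl hk ?_
    ext x
    have : xor (ψ k x) (ψ l x) = false := DFunLike.congr_fun h x
    revert this
    cases ψ k x <;> cases ψ l x <;> simp

theorem comp_gW_inj (c : List Bool) {φ ψ : XX →+ Bool}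
    (h : φ.comp (act false (gW c)) = ψ.comp (act false (gW c))) : φ = ψ := by
  ext x
  have := DFunLike.congr_fun h (act false (gW c) x)
  simpa [act_gW_gW] using this

theorem gap_abs {I J : Type} (U : Finset I) (t : Finset J) (g : I → J → XX →+ Bool)
    (P : I → J → Prop) (hg : ∀ u, ∀ φ ∈ t, Continuous (g u φ)) (h1 : ∀ u, Set.InjOn (g u) t)
    (h2 : ∀ u ∈ U, ∀ u' ∈ U, ∀ φ ∈ t, ∀ φ' ∈ t, ¬ P u φ → ¬ P u' φ' → g u φ = g u' φ' → u = u')
    (h3 : ∀ u ∈ U, ∀ u' ∈ U, ∀ φ, P u φ → P u' φ → u = u') (a : J → ℝ) :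
    ∫ x, (∑ u ∈ U, ∑ φ ∈ t, a φ * ch (g u φ) x) ^ 2 ∂mu _ ≤ 4 * U.card * ∑ φ ∈ t, a φ ^ 2 := by
  classical
  obtain ⟨A, hAd⟩ : ∃ A : I → XX → ℝ, ∀ u,
    A u = fun x => ∑ φ ∈ t.filter (fun φ => P u φ), a φ * ch (g u φ) x := ⟨_, fun _ => rfl⟩
  obtain ⟨B, hBd⟩ : ∃ B : XX → ℝ, B = fun x =>
    ∑ z ∈ (U ×ˢ t).filter (fun z => ¬ P z.1 z.2), a z.2 * ch (g z.1 z.2) x := ⟨_, rfl⟩
  have hA : ∀ u, Continuous (A u) := fun u => by
    rw [hAd]
    exact continuous_finsetSum _ fun φ h =>
      continuous_const.mul (continuous_ch (hg u φ (Finset.mem_filter.1 h).1))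
  have hB : Continuous B := by
    rw [hBd]
    exact continuous_finsetSum _ fun z h => continuous_const.mul
      (continuous_ch (hg _ _ (Finset.mem_product.1 (Finset.mem_filter.1 h).1).2))
  have e1 : ∀ x, ∑ u ∈ U, ∑ φ ∈ t, a φ * ch (g u φ) x = ∑ u ∈ U, A u x + B x := by
    intro x
    simp only [hAd, hBd, Finset.sum_filter, Finset.sum_product, ← Finset.sum_add_distrib]
    refine Finset.sum_congr rfl fun u _ => Finset.sum_congr rfl fun φ _ => ?_
    by_cases h : P u φ <;> simp [h]
  have e2 : ∀ x, (∑ u ∈ U, A u x + B x) ^ 2 ≤ 2 * U.card * ∑ u ∈ U, A u x ^ 2 + 2 * B x ^ 2 := by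
    intro x
    have := sq_sum_le_card_mul_sum_sq (s := U) (f := fun u => A u x)
    nlinarith [sq_nonneg (∑ u ∈ U, A u x - B x)]
  have e3 : ∀ u, ∫ x, A u x ^ 2 ∂mu _ = ∑ φ ∈ t.filter (fun φ => P u φ), a φ ^ 2 := fun u => by
    rw [hAd]
    exact orth _ (g u) (fun φ h => hg u φ (Finset.mem_filter.1 h).1)
      ((h1 u).mono (Finset.coe_subset.2 (Finset.filter_subset _ _))) a
  have e4 : ∫ x, B x ^ 2 ∂mu _ = ∑ z ∈ (U ×ˢ t).filter (fun z => ¬ P z.1 z.2), a z.2 ^ 2 := by
    rw [hBd]
    refine orth _ (fun z : I × J => g z.1 z.2)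
      (fun z h => hg _ _ (Finset.mem_product.1 (Finset.mem_filter.1 h).1).2) ?_ (fun z => a z.2)
    rintro ⟨u, φ⟩ h ⟨u', φ'⟩ h' he
    simp only [Finset.coe_filter, Finset.mem_product, mem_ofPred_eq] at h h' he
    obtain rfl := h2 u h.1.1 u' h'.1.1 φ h.1.2 φ' h'.1.2 h.2 h'.2 he
    rw [h1 u h.1.2 h'.1.2 he]
  have e5 : ∑ u ∈ U, ∑ φ ∈ t.filter (fun φ => P u φ), a φ ^ 2 ≤ ∑ φ ∈ t, a φ ^ 2 := by
    simp only [Finset.sum_filter]
    rw [Finset.sum_comm]
    refine Finset.sum_le_sum fun φ _ => ?_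
    rw [← Finset.sum_filter, Finset.sum_const, nsmul_eq_mul]
    have : (U.filter (fun u => P u φ)).card ≤ 1 :=
      Finset.card_le_one.2 fun u hu u' hu' => h3 u (Finset.mem_filter.1 hu).1 u'
        (Finset.mem_filter.1 hu').1 φ (Finset.mem_filter.1 hu).2 (Finset.mem_filter.1 hu').2
    have h6 : ((U.filter (fun u => P u φ)).card : ℝ) ≤ 1 := by exact_mod_cast this
    nlinarith [sq_nonneg (a φ)]
  have e6 : ∑ z ∈ (U ×ˢ t).filter (fun z => ¬ P z.1 z.2), a z.2 ^ 2 ≤
      U.card * ∑ φ ∈ t, a φ ^ 2 := by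
    refine (Finset.sum_le_sum_of_subset_of_nonneg (Finset.filter_subset _ _)
      fun _ _ _ => sq_nonneg _).trans ?_
    rw [Finset.sum_product]
    simp
  have iA : ∀ u, Integrable (fun x => A u x ^ 2) (mu _) := fun u => integrable_cont ((hA u).pow 2)
  have iA' : Integrable (fun x => ∑ u ∈ U, A u x ^ 2) (mu _) :=
    integrable_finsetSum _ fun u _ => iA u
  have iB : Integrable (fun x => B x ^ 2) (mu _) := integrable_cont (hB.pow 2)
  have iC : Integrable (fun x => (∑ u ∈ U, A u x + B x) ^ 2) (mu _) :=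
    integrable_cont (((continuous_finsetSum _ fun u _ => hA u).add hB).pow 2)
  have iD : Integrable (fun x => 2 * (U.card : ℝ) * ∑ u ∈ U, A u x ^ 2 + 2 * B x ^ 2) (mu _) :=
    (iA'.const_mul _).add (iB.const_mul _)
  have e7 := integral_mono iC iD e2
  rw [integral_add (iA'.const_mul _) (iB.const_mul _), integral_const_mul,
    integral_const_mul, integral_finsetSum _ fun u _ => iA u, e4] at e7
  simp only [e3] at e7
  simp only [e1]
  have : (0 : ℝ) ≤ U.card := Nat.cast_nonneg _
  nlinarith [mul_le_mul_of_nonneg_left e5 this]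

theorem gap_l2 (U : Finset (List Bool)) {k : ℕ} (hU : ∀ u ∈ U, u.length = k)
    (t : Finset (XX →+ Bool)) (ht : ∀ φ ∈ t, Continuous φ ∧ φ ≠ 0) (a : (XX →+ Bool) → ℝ) :
    ∫ x, (∑ u ∈ U, ∑ φ ∈ t, a φ * ch φ (act false (gW u) x)) ^ 2 ∂mu _ ≤
      4 * U.card * ∑ φ ∈ t, a φ ^ 2 := by
  refine gap_abs U t (fun u φ => φ.comp (act false (gW u))) (fun u φ => PP u (co φ))
    (fun u φ h => (ht φ h).1.comp (continuous_act _ _)) (fun u _ _ _ _ h => comp_gW_inj u h)
    ?_ (fun u hu u' hu' φ h h' => PP.unique ((hU u hu).trans (hU u' hu').symm) h h') a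
  intro u hu u' hu' φ hφ φ' hφ' h h' he
  have e1 := pingpong (ht _ hφ).1 (ht _ hφ).2 u h
  have e2 := pingpong (ht _ hφ').1 (ht _ hφ').2 u' h'
  rw [← he] at e2
  exact PP.unique ((hU u hu).trans (hU u' hu').symm) e1 e2

/-- Span of the continuous characters. -/
def Sp : Submodule ℝ (XX → ℝ) := Submodule.span ℝ (ch '' {φ | Continuous φ})

theorem Sp_mul {f g : XX → ℝ} (hf : f ∈ Sp) (hg : g ∈ Sp) : f * g ∈ Sp := by
  have := Submodule.mul_mem_mul hf hg
  rw [Sp, Submodule.span_mul_span] at this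
  refine Submodule.span_mono ?_ this
  rintro _ ⟨_, ⟨φ, hφ, rfl⟩, _, ⟨ψ, hψ, rfl⟩, rfl⟩
  exact ⟨φ + ψ, Continuous.add hφ hψ, (ch_mul φ ψ).symm⟩

theorem Sp_one : (1 : XX → ℝ) ∈ Sp := Submodule.subset_span ⟨0, continuous_const, ch_zero⟩

theorem Sp_cyl (L : List (List ((Al × Al) × Bool))) : (cyl L).indicator (1 : XX → ℝ) ∈ Sp := by
  classical
  have h1 : ∀ l : List ((Al × Al) × Bool),
      ({y | ∀ q ∈ l, gr y q} : Set XX).indicator (1 : XX → ℝ) ∈ Sp := by
    intro l
    induction l with
    | nil => simpa using Sp_one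
    | cons q l ih =>
      have h2 : ch (ev q.1) ∈ Sp := Submodule.subset_span ⟨_, continuous_ev _, rfl⟩
      have h3 := Sp_mul (Sp.smul_mem (1 / 2 : ℝ) (Sp.add_mem Sp_one
        (Sp.smul_mem (if q.2 = true then -1 else 1 : ℝ) h2))) ih
      convert h3 using 1
      funext y
      simp only [Set.indicator, mem_ofPred_eq, List.forall_mem_cons, Pi.mul_apply, Pi.smul_apply,
        Pi.add_apply, Pi.one_apply, ch, gr, ev, AddMonoidHom.coe_mk, ZeroHom.coe_mk, smul_eq_mul]
      by_cases h4 : ∀ x ∈ l, y x.1 = x.2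
      · simp only [eq_true h4]
        by_cases h5 : y q.1 = true <;> by_cases h6 : q.2 = true <;> simp [h5, h6] <;> norm_num
      · simp only [eq_false h4]
        simp
  induction L with
  | nil =>
    have : cyl ([] : List (List ((Al × Al) × Bool))) = ∅ := by simp [cyl]
    rw [this, Set.indicator_empty]
    exact Sp.zero_mem
  | cons l L ih =>
    convert Sp.sub_mem (Sp.add_mem (h1 l) ih) (Sp_mul (h1 l) ih) using 1
    funext y
    have : y ∈ cyl (l :: L) ↔ (∀ q ∈ l, gr y q) ∨ y ∈ cyl L := by simp [cyl]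
    simp only [Set.indicator, this, mem_ofPred_eq, Pi.sub_apply, Pi.add_apply, Pi.mul_apply,
      Pi.one_apply]
    by_cases h2 : (∀ q ∈ l, gr y q) <;> by_cases h3 : y ∈ cyl L <;>
      simp only [h2, h3, eq_true] <;> simp

theorem countP_eq_sum {γ : Type} [DecidableEq γ] {U : List γ} (hU : U.Nodup) (p : γ → Bool) :
    (U.countP p : ℝ) = ∑ u ∈ U.toFinset, if p u = true then 1 else 0 := by
  rw [List.countP_eq_length_filter, ← List.toFinset_card_of_nodup (hU.filter _),
    List.toFinset_filter, Finset.card_filter]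
  simp

open Classical in
theorem gap_cyl (U : List (List Bool)) (hU : U.Nodup) {k : ℕ} (hk : ∀ u ∈ U, u.length = k)
    (h0 : 0 < U.length) (L : List (List ((Al × Al) × Bool))) (hL : (mu _).real (cyl L) ≤ 1 / 20) :
    (mu _).real {x | U.length ≤ 10 * U.countP (fun u => decide (act false (gW u) x ∈ cyl L))} ≤
      1600 / U.length := by
  set m := (mu _).real (cyl L) with hm
  have hm0 : 0 ≤ m := measureReal_nonneg
  obtain ⟨a, ht, ha⟩ := (Finsupp.mem_span_image_iff_linearCombination ℝ).1
    (Sp.sub_mem (Sp_cyl L) (Sp.smul_mem m Sp_one))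
  rw [Finsupp.mem_supported] at ht
  have ha' : ∀ x, ∑ φ ∈ a.support, a φ * ch φ x = (cyl L).indicator 1 x - m := by
    intro x
    have := congrFun ha x
    simpa [Finsupp.linearCombination_apply, Finsupp.sum] using this
  generalize a.support = t at ht ha'
  have h1 : ∑ φ ∈ t, ∫ x, a φ * ch φ x ∂mu _ = 0 := by
    rw [← integral_finsetSum _ fun φ h => (integrable_cont (continuous_ch (ht h))).const_mul _]
    simp only [ha']
    rw [integral_sub ((integrable_const 1).indicator (isOpen_cyl L).measurableSet)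
      (integrable_const _), integral_indicator_one (isOpen_cyl L).measurableSet]
    simp [hm]
  have h2 : ∀ x, ∑ φ ∈ t.erase 0, a φ * ch φ x = (cyl L).indicator 1 x - m := by
    intro x
    rw [← ha']
    by_cases h : (0 : XX →+ Bool) ∈ t
    · refine Finset.sum_erase _ ?_
      rw [Finset.sum_eq_single_of_mem 0 h fun φ _ hφ => by
        rw [integral_const_mul, integral_ch hφ, mul_zero]] at h1
      simp [ch_zero] at h1
      simp [h1]
    · rw [Finset.erase_eq_of_notMem h]
  have ht' : ∀ φ ∈ t.erase 0, Continuous φ ∧ φ ≠ 0 := fun φ h =>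
    ⟨ht (Finset.mem_of_mem_erase h), Finset.ne_of_mem_erase h⟩
  have h3 : ∑ φ ∈ t.erase 0, a φ ^ 2 ≤ 1 := by
    rw [← orth (t.erase 0) id (fun φ h => (ht' φ h).1) (injOn_id _) a]
    simp only [id, h2]
    calc _ ≤ ∫ _ : XX, (1 : ℝ) ∂mu _ := by
          refine integral_mono_of_nonneg (Filter.Eventually.of_forall fun _ => sq_nonneg _)
            (integrable_const _) (Filter.Eventually.of_forall fun x => ?_)
          by_cases hx : x ∈ cyl L <;> simp only [Set.indicator, hx, if_true, if_false,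
            Pi.one_apply] <;> nlinarith
      _ = 1 := by simp
  have h4 := gap_l2 U.toFinset (fun u hu => hk u (List.mem_toFinset.1 hu)) _ ht' a
  rw [List.toFinset_card_of_nodup hU] at h4
  have hN : (0 : ℝ) < U.length := by exact_mod_cast h0
  have h5 := mul_meas_ge_le_integral_of_nonneg (μ := mu _)
    (f := fun x => (∑ u ∈ U.toFinset, ∑ φ ∈ t.erase 0, a φ * ch φ (act false (gW u) x)) ^ 2)
    (Filter.Eventually.of_forall fun _ => sq_nonneg _)
    (integrable_cont ((continuous_finsetSum _ fun u _ => continuous_finsetSum _ fun φ h =>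
      continuous_const.mul ((continuous_ch (ht' φ h).1).comp (continuous_act _ _))).pow 2))
    ((U.length / 20) ^ 2)
  have h6 : (mu _).real {x | U.length ≤ 10 * U.countP
      (fun u => decide (act false (gW u) x ∈ cyl L))} ≤ (mu _).real {x | ((U.length : ℝ) / 20) ^ 2 ≤
      (∑ u ∈ U.toFinset, ∑ φ ∈ t.erase 0, a φ * ch φ (act false (gW u) x)) ^ 2} := by
    refine measureReal_mono fun x hx => ?_
    simp only [mem_ofPred_eq, h2] at hx ⊢
    have e1 : (U.length : ℝ) ≤ 10 * (U.countP (fun u => decide (act false (gW u) x ∈ cyl L)) : ℝ) := by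
      exact_mod_cast hx
    rw [countP_eq_sum hU] at e1
    rw [Finset.sum_sub_distrib, Finset.sum_const, List.toFinset_card_of_nodup hU, nsmul_eq_mul]
    simp only [Set.indicator, Pi.one_apply, decide_eq_true_eq] at e1 ⊢
    refine pow_le_pow_left₀ (by positivity) ?_ 2
    nlinarith
  refine h6.trans ?_
  rw [le_div_iff₀ hN]
  have h7 := h5.trans h4
  nlinarith [mul_le_mul_of_nonneg_left h3 hN.le]

open Classical in
theorem measurableSet_many (sd : Bool) (U : List (List Bool)) {S : Set XX} (hS : MeasurableSet S) :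
    MeasurableSet {x | U.length ≤ 10 * U.countP (fun u => decide (act sd (gW u) x ∈ S))} := by
  have : ∀ V : List (List Bool),
      Measurable (fun x => V.countP (fun u => decide (act sd (gW u) x ∈ S))) := by
    intro V
    induction V with
    | nil => simp
    | cons u V ih =>
      simp only [List.countP_cons, decide_eq_true_eq]
      exact ih.add (Measurable.ite ((continuous_act sd _).measurable hS) measurable_const
        measurable_const)
  exact measurableSet_le measurable_const ((this U).const_mul 10)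

open Classical in
theorem gap (sd : Bool) (U : List (List Bool)) (hU : U.Nodup) {k : ℕ} (hk : ∀ u ∈ U, u.length = k)
    (h0 : 0 < U.length) {S : Set XX} (hS : MeasurableSet S) (hS' : (mu _).real S ≤ 1 / 25) :
    (mu _).real {x | U.length ≤ 10 * U.countP (fun u => decide (act sd (gW u) x ∈ S))} ≤
      2000 / U.length := by
  have hN : (1 : ℝ) ≤ U.length := by exact_mod_cast h0
  have key : ∀ {S : Set XX}, MeasurableSet S → (mu _).real S ≤ 1 / 25 →
      (mu _).real {x | U.length ≤ 10 * U.countP (fun u => decide (act false (gW u) x ∈ S))} ≤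
      2000 / U.length := by
    intro S hS hS'
    obtain ⟨L, hL⟩ := approx_cyl (mu _) hS (ε := ENNReal.ofReal (1 / (100 * U.length ^ 2)))
      (by simp only [ne_eq, ENNReal.ofReal_eq_zero, not_le]; positivity)
    have hL' : (mu _).real (S ∆ cyl L) ≤ 1 / (100 * U.length ^ 2) :=
      ENNReal.toReal_le_of_le_ofReal (by positivity) hL.le
    have hη : 1 / (100 * (U.length : ℝ) ^ 2) ≤ 1 / 100 :=
      one_div_le_one_div_of_le (by norm_num) (by nlinarith)
    have hm : MeasurableSet (S ∆ cyl L) := hS.symmDiff (isOpen_cyl L).measurableSet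
    have h1 : (mu _).real (cyl L) ≤ 1 / 20 := by
      have : (mu _).real (cyl L) ≤ (mu _).real (S ∪ S ∆ cyl L) := by
        refine measureReal_mono fun x hx => ?_
        by_cases h : x ∈ S
        · exact Or.inl h
        · exact Or.inr (Or.inr ⟨hx, h⟩)
      linarith [measureReal_union_le (μ := mu _) S (S ∆ cyl L)]
    have h2 := gap_cyl U hU hk h0 L h1
    have h3 : (mu _).real (⋃ u ∈ U.toFinset, act false (gW u) ⁻¹' (S ∆ cyl L)) ≤
        1 / U.length := by
      refine (measureReal_biUnion_finset_le _ _).trans ?_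
      simp only [(mp_act false _).measureReal_preimage hm.nullMeasurableSet, Finset.sum_const,
        List.toFinset_card_of_nodup hU, nsmul_eq_mul]
      refine (mul_le_mul_of_nonneg_left hL' (by positivity)).trans ?_
      rw [mul_one_div, div_le_div_iff₀ (by positivity) (by positivity)]
      nlinarith
    calc _ ≤ (mu _).real ({x | U.length ≤ 10 * U.countP
          (fun u => decide (act false (gW u) x ∈ cyl L))} ∪
          ⋃ u ∈ U.toFinset, act false (gW u) ⁻¹' (S ∆ cyl L)) := by
          refine measureReal_mono fun x hx => ?_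
          by_cases h : x ∈ ⋃ u ∈ U.toFinset, act false (gW u) ⁻¹' (S ∆ cyl L)
          · exact Or.inr h
          · left
            simp only [mem_iUnion, Set.mem_preimage, not_exists, List.mem_toFinset] at h
            refine le_trans hx (Nat.mul_le_mul_left _ (List.countP_mono_left fun u hu h4 => ?_))
            by_contra h5
            exact h u hu (Or.inl ⟨by simpa using h4, by simpa using h5⟩)
      _ ≤ 1600 / U.length + 1 / U.length := (measureReal_union_le _ _).trans (add_le_add h2 h3)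
      _ ≤ _ := by rw [← add_div]; gcongr; norm_num
  cases sd
  · exact key hS hS'
  · have h1 := key (continuous_tr.measurable hS)
      (by rwa [mp_tr.measureReal_preimage hS.nullMeasurableSet])
    refine le_trans (le_of_eq ?_) h1
    rw [← mp_tr.measureReal_preimage (measurableSet_many false U
      (continuous_tr.measurable hS)).nullMeasurableSet]
    simp only [act_true]
    rfl

end Vale.Agent.P327
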