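import Vale.Agent.P327.Deg

/-! The fair coin measure. -/

namespace Vale.Agent.P327

open Primrec MeasureTheory Set
open scoped ENNReal symmDiff

/-- Haar probability measure on Cantor space. -/
noncomputable def mu (ι : Type) [Countable ι] : Measure (ι → Bool) := Measure.addHaarMeasure ⊤

instance (ι : Type) [Countable ι] : Measure.IsAddHaarMeasure (mu ι) := by
  unfold mu; infer_instance

instance (ι : Type) [Countable ι] : IsProbabilityMeasure (mu ι) :=
  ⟨by simpa [mu] using Measure.addHaarMeasure_self (G := ι → Bool) (K₀ := ⊤)⟩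

theorem mp_hom {ι κ : Type} [Countable ι] [Countable κ] (f : (ι → Bool) →+ (κ → Bool))
    (hc : Continuous f) (hs : Function.Surjective f) : MeasurePreserving f (mu ι) (mu κ) :=
  AddMonoidHom.measurePreserving hc hs (by simp)

/-- Finite unions of cylinders. -/
def cyl {κ : Type} (L : List (List (κ × Bool))) : Set (κ → Bool) :=
  {y | ∃ l ∈ L, ∀ q ∈ l, gr y q}

theorem isOpen_cyl {κ : Type} (L : List (List (κ × Bool))) : IsOpen (cyl L) := by
  have : cyl L = ⋃ l ∈ L, {y | ∀ q ∈ l, gr y q} := by ext y; simp [cyl]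
  rw [this]
  exact isOpen_biUnion fun l _ => isOpen_gr_list l

theorem exists_list_of_isOpen {κ : Type} {U : Set (κ → Bool)} (hU : IsOpen U) {y : κ → Bool}
    (hy : y ∈ U) : ∃ l : List κ, ∀ z, (∀ i ∈ l, z i = y i) → z ∈ U := by
  obtain ⟨I, u, h1, h2⟩ := isOpen_pi_iff.1 hU y hy
  refine ⟨I.toList, fun z hz => h2 fun i hi => ?_⟩
  rw [hz i (Finset.mem_toList.2 hi)]
  exact (h1 i hi).2

theorem approx_cyl {κ : Type} [Countable κ] (ν : Measure (κ → Bool)) [IsFiniteMeasure ν]
    {A : Set (κ → Bool)} (hA : MeasurableSet A) {ε : ℝ≥0∞} (hε : ε ≠ 0) :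
    ∃ L, ν (A ∆ cyl L) < ε := by
  have h2 : ε / 2 ≠ 0 := by simpa using hε
  obtain ⟨U, hAU, hU, -, h3⟩ := hA.exists_isOpen_sdiff_lt (measure_ne_top ν A) h2
  have hun : U = ⋃ L : {L : List (List (κ × Bool)) // cyl L ⊆ U}, cyl L.1 := by
    refine Subset.antisymm (fun y hy => ?_) (iUnion_subset fun L => L.2)
    obtain ⟨l, hl⟩ := exists_list_of_isOpen hU hy
    refine mem_iUnion.2 ⟨⟨[l.map (fun i => (i, y i))], ?_⟩, ?_⟩
    · rintro z ⟨l', hl', hz⟩
      obtain rfl := List.mem_singleton.1 hl'
      exact hl z fun i hi => hz (i, y i) (List.mem_map_of_mem hi)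
    · refine ⟨_, List.mem_singleton_self _, fun q hq => ?_⟩
      obtain ⟨i, -, rfl⟩ := List.mem_map.1 hq
      rfl
  have hdir : Directed (· ⊆ ·) (fun L : {L : List (List (κ × Bool)) // cyl L ⊆ U} => cyl L.1) := by
    intro L L'
    refine ⟨⟨L.1 ++ L'.1, ?_⟩, ?_, ?_⟩
    · rintro z ⟨l, hl, hz⟩
      rcases List.mem_append.1 hl with hl | hl
      · exact L.2 ⟨l, hl, hz⟩
      · exact L'.2 ⟨l, hl, hz⟩
    · rintro z ⟨l, hl, hz⟩; exact ⟨l, List.mem_append_left _ hl, hz⟩
    · rintro z ⟨l, hl, hz⟩; exact ⟨l, List.mem_append_right _ hl, hz⟩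
  have hsup := hdir.measure_iUnion (μ := ν)
  rw [← hun] at hsup
  have : Nonempty {L : List (List (κ × Bool)) // cyl L ⊆ U} :=
    ⟨⟨[], by rintro z ⟨l, hl, -⟩; simp at hl⟩⟩
  have : ∃ L : {L : List (List (κ × Bool)) // cyl L ⊆ U}, ν U < ν (cyl L.1) + ε / 2 := by
    rw [← lt_iSup_iff, ← ENNReal.iSup_add, ← hsup]
    exact ENNReal.lt_add_right (measure_ne_top _ _) h2
  obtain ⟨L, hL⟩ := this
  have h4 := measure_sdiff_lt_of_lt_add (isOpen_cyl L.1).measurableSet.nullMeasurableSet L.2
    (measure_ne_top ν _) hL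
  refine ⟨L.1, ?_⟩
  calc ν (A ∆ cyl L.1) ≤ ν ((U \ cyl L.1) ∪ (U \ A)) := by
        refine measure_mono ?_
        rintro z (⟨h5, h6⟩ | ⟨h5, h6⟩)
        · exact Or.inl ⟨hAU h5, h6⟩
        · exact Or.inr ⟨L.2 h5, h6⟩
    _ ≤ ν (U \ cyl L.1) + ν (U \ A) := measure_union_le _ _
    _ < ε / 2 + ε / 2 := ENNReal.add_lt_add h4 h3
    _ = ε := ENNReal.add_halves ε

variable {ι κ : Type} [Primcodable ι] [Primcodable κ]

theorem en_cyl (L : List (List (κ × Bool))) {α : Type} [Primcodable α] :
    En (fun y : κ → Bool => gr y) (fun y (_ : α) => y ∈ cyl L) := by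
  have : En (fun y : κ → Bool => gr y)
      (fun y (z : α × List (κ × Bool)) => z.2 ∈ L ∧ ∀ q ∈ z.2, gr y q) :=
    (En.prim (primrec_mem.comp snd (const L))).and ((En.self.comp snd).all snd)
  exact this.ex

theorem exists_enum_prim (ι : Type) [Primcodable ι] :
    ∃ d : ℕ → ι → Bool, (∀ n, Primrec (d n)) ∧ ∀ f, Primrec f → ∃ n, d n = f := by
  classical
  obtain ⟨E, hE, hE'⟩ := exists_enum_primrecPred ι
  refine ⟨fun n i => decide (E n i), fun n => (hE n).decide, fun f hf => ?_⟩
  obtain ⟨n, hn⟩ := hE' (fun i => f i = true) (Primrec.eq.comp hf (const true))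
  exact ⟨n, by funext i; simp [hn]⟩

theorem primrec_add {f g : ι → Bool} (hf : Primrec f) (hg : Primrec g) : Primrec (f + g) :=
  (dom_bool₂ xor).comp hf hg

theorem dense_prim : Dense {d : ι → Bool | Primrec d} := by
  classical
  rw [dense_iff_inter_open]
  rintro U hU ⟨y, hy⟩
  obtain ⟨l, hl⟩ := exists_list_of_isOpen hU hy
  refine ⟨fun i => decide (i ∈ l.filter y), hl _ fun i hi => by simp [hi], ?_⟩
  exact PrimrecPred.decide (primrec_mem.comp Primrec.id (const _))

theorem ergodic_prim {H : Set (ι → Bool)} (hH : MeasurableSet H) (h0 : mu ι H ≠ 0) :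
    ∀ᵐ x ∂mu ι, ∃ d, Primrec d ∧ x + d ∈ H := by
  obtain ⟨d, hd, hd'⟩ := exists_enum_prim ι
  let G : Set (ι → Bool) := {x | ∃ d, Primrec d ∧ x + d ∈ H}
  have hG : MeasurableSet G := by
    have : G = ⋃ n, (fun x => x + d n) ⁻¹' H := by
      ext x
      simp only [G, mem_ofPred_eq, mem_iUnion, mem_preimage]
      constructor
      · rintro ⟨f, hf, h⟩
        obtain ⟨n, rfl⟩ := hd' f hf
        exact ⟨n, h⟩
      · rintro ⟨n, h⟩; exact ⟨_, hd n, h⟩
    rw [this]
    exact MeasurableSet.iUnion fun n => measurable_add_const _ hH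
  have h1 : Dense {g : ι → Bool | (fun x => g +ᵥ x) ⁻¹' G = G} := by
    refine dense_prim.mono fun g hg => ?_
    ext x
    simp only [G, mem_preimage, vadd_eq_add, mem_ofPred_eq]
    constructor
    · rintro ⟨f, hf, h⟩
      exact ⟨g + f, primrec_add hg hf, by rwa [← add_assoc, add_comm x g]⟩
    · rintro ⟨f, hf, h⟩
      refine ⟨g + f, primrec_add hg hf, ?_⟩
      rwa [add_comm g x, add_assoc, ← add_assoc g, add_self_fun, zero_add]
  have h2 := aeconst_of_dense_setOfPred_preimage_vadd_eq (μ := mu ι) hG.nullMeasurableSet h1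
  rcases Filter.eventuallyConst_set.1 h2 with h3 | h3
  · exact h3
  · exfalso
    apply h0
    refine measure_mono_null ?_ (ae_iff.1 h3)
    intro x hx
    simp only [mem_ofPred_eq, not_not]
    exact ⟨0, const false, by simpa using hx⟩

/-- All binary strings of a given length. -/
def allStr (k : ℕ) : List (List Bool) :=
  Nat.rec [[]] (fun _ L => L.map (List.cons false) ++ L.map (List.cons true)) k

theorem allStr_succ (k : ℕ) :
    allStr (k + 1) = (allStr k).map (List.cons false) ++ (allStr k).map (List.cons true) := rfl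

theorem primrec_allStr : Primrec allStr :=
  nat_rec₁ _ (list_append.comp (list_map snd (list_cons.comp (const false) snd).to₂)
    (list_map snd (list_cons.comp (const true) snd).to₂)).to₂

theorem mem_allStr {k : ℕ} {σ : List Bool} : σ ∈ allStr k ↔ σ.length = k := by
  induction k generalizing σ with
  | zero => simp [allStr]
  | succ k ih =>
    rw [allStr_succ]
    rcases σ with _ | ⟨b, σ⟩
    · simp
    · cases b <;> simp [ih]

theorem nodup_allStr (k : ℕ) : (allStr k).Nodup := by
  induction k with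
  | zero => simp [allStr]
  | succ k ih =>
    rw [allStr_succ, List.nodup_append]
    refine ⟨ih.map List.cons_injective, ih.map List.cons_injective, ?_⟩
    simp

theorem length_allStr (k : ℕ) : (allStr k).length = 2 ^ k := by
  induction k with
  | zero => rfl
  | succ k ih => rw [allStr_succ]; simp [ih]; ring

/-- Initial segment. -/
def pre (k : ℕ) (y : ℕ → Bool) : List Bool := (List.range k).map y

theorem pre_eq_iff {k : ℕ} {y : ℕ → Bool} {σ : List Bool} (h : σ.length = k) :
    pre k y = σ ↔ ∀ i < k, y i = σ.getD i false := by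
  subst h
  constructor
  · intro h i hi
    have := congrArg (fun l => l.getD i false) h
    simpa [pre, hi] using this
  · intro h
    refine List.ext_getElem (by simp [pre]) fun i h1 h2 => ?_
    simpa [pre, h2] using h i h2

theorem measurableSet_box (k : ℕ) (z : ℕ → Bool) :
    MeasurableSet {y : ℕ → Bool | ∀ i < k, y i = z i} :=
  measurableSet_setOfPred.2 (Measurable.forall fun i => Measurable.forall fun _ =>
    measurable_gr measurable_id (i, z i))

theorem mu_pre_finset (k : ℕ) (S : Finset (List Bool)) (hS : ∀ σ ∈ S, σ.length = k) :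
    mu ℕ (pre k ⁻¹' S) = S.card * mu ℕ {y | ∀ i < k, y i = false} := by
  have h1 : ∀ σ ∈ S, pre k ⁻¹' {σ} = {y | ∀ i < k, y i = σ.getD i false} := by
    intro σ hσ; ext y; simp only [mem_preimage, mem_singleton_iff, pre_eq_iff (hS σ hσ)]; rfl
  rw [← sum_measure_preimage_singleton S (fun σ hσ => by
    rw [h1 σ hσ]; exact measurableSet_box k _)]
  rw [Finset.sum_congr rfl (g := fun _ => mu ℕ {y | ∀ i < k, y i = false})]
  · simp
  · intro σ hσ
    rw [h1 σ hσ, ← measure_preimage_add_right (mu ℕ) (fun i => σ.getD i false)]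
    congr 1
    ext y
    simp only [mem_preimage, mem_ofPred_eq, Pi.add_apply]
    refine forall_congr' fun i => imp_congr_right fun _ => ?_
    show xor _ _ = _ ↔ _
    cases y i <;> cases σ.getD i false <;> simp

open Classical in
theorem mu_pre (k : ℕ) (p : List Bool → Prop) :
    2 ^ k * mu ℕ {y | p (pre k y)} = (allStr k).countP (fun σ => decide (p σ)) := by
  have h1 := mu_pre_finset k (allStr k).toFinset (fun σ hσ => mem_allStr.1 (by simpa using hσ))
  have h2 := mu_pre_finset k ((allStr k).filter (fun σ => decide (p σ))).toFinset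
    (fun σ hσ => mem_allStr.1 (List.mem_filter.1 (List.mem_toFinset.1 hσ)).1)
  have h3 : pre k ⁻¹' (allStr k).toFinset = univ := by
    ext y; simp [mem_allStr, pre]
  have h4 : pre k ⁻¹' ((allStr k).filter (fun σ => decide (p σ))).toFinset =
      {y | p (pre k y)} := by
    ext y; simp [mem_allStr, pre]
  rw [h3, List.toFinset_card_of_nodup (nodup_allStr k), length_allStr, measure_univ] at h1
  rw [h4, List.toFinset_card_of_nodup ((nodup_allStr k).filter _),
    ← List.countP_eq_length_filter] at h2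
  rw [h2, mul_left_comm]
  push_cast at h1
  rw [← h1, mul_one]

end Vale.Agent.P327
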