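import Vale.Agent.P327.Haar

/-! Relativized theorem of Sacks: nontrivial upper cones are null. -/

namespace Vale.Agent.P327

open Primrec MeasureTheory Set
open scoped ENNReal symmDiff

theorem En.app2 {T β α γ δ : Type} [Primcodable β] [Primcodable α] [Primcodable γ]
    [Primcodable δ] {G : T → β → Prop} {H : T → γ × δ → Prop} (hH : En G H)
    {W : (ℕ × List δ) × α → Prop} (hW : PrimrecPred W) :
    En G (fun t (z : α × γ) => app W (fun r => H t (z.2, r)) z.1) := by
  have : En G (fun t (z : (α × γ) × (ℕ × List δ)) =>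
      (∀ r ∈ z.2.2, H t (z.1.2, r)) ∧ W (z.2, z.1.1)) :=
    ((hH.comp ((snd.comp (fst.comp fst)).pair snd)).all (snd.comp snd)).and
      (En.prim (hW.comp (snd.pair (fst.comp fst))))
  refine this.ex.of_eq ?_
  intro t z
  simp [app]

theorem primrec_pow2 : Primrec (fun k : ℕ => 2 ^ k) :=
  (Primrec₂.unpaired'.1 Nat.Primrec.pow).comp (const 2) Primrec.id

theorem sacks_nat (A B : ℕ → Bool) (h : ¬ Red B A) :
    mu ℕ {y | Red B (Sum.elim A y)} = 0 := by
  classical
  by_contra h0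
  apply h
  obtain ⟨E, hE, hE'⟩ := exists_enum_primrecPred ((ℕ × List ((ℕ ⊕ ℕ) × Bool)) × (ℕ × Bool))
  have h1 : ∃ n, mu ℕ {y | ∀ q, gr B q ↔ app (E n) (gr (Sum.elim A y)) q} ≠ 0 := by
    by_contra h1
    push Not at h1
    apply h0
    refine measure_mono_null ?_ (measure_iUnion_null h1)
    rintro y ⟨W, hW, hy⟩
    obtain ⟨n, rfl⟩ := hE' W hW
    exact mem_iUnion.2 ⟨n, hy ()⟩
  obtain ⟨n, hn⟩ := h1
  set S := {y | ∀ q, gr B q ↔ app (E n) (gr (Sum.elim A y)) q} with hS
  have hSm : MeasurableSet S :=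
    measurableSet_setOfPred.2 (Measurable.forall fun q => measurable_const.iff
      (measurable_app (measurable_sumElim measurable_const measurable_id) _ q))
  obtain ⟨L, hL⟩ := approx_cyl (mu ℕ) hSm (ε := mu ℕ S / 2) (by simpa using hn)
  have h2 : mu ℕ (S ∆ cyl L) < mu ℕ (S ∩ cyl L) := by
    by_contra h2
    push Not at h2
    have h3 : mu ℕ S ≤ mu ℕ (S ∩ cyl L) + mu ℕ (S ∆ cyl L) := by
      refine le_trans (measure_mono ?_) (measure_union_le _ _)
      intro y hy
      by_cases hc : y ∈ cyl L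
      · exact Or.inl ⟨hy, hc⟩
      · exact Or.inr (Or.inl ⟨hy, hc⟩)
    have h4 := ENNReal.add_lt_add (h2.trans_lt hL) hL
    rw [ENNReal.add_halves] at h4
    exact absurd h3 (not_le.2 h4)
  obtain ⟨θ, hθ0, hθ1, hθ2⟩ := ENNReal.lt_iff_exists_rat_btwn.1 h2
  obtain ⟨c, d, hd, hcd⟩ : ∃ c d : ℕ, 0 < d ∧ ((Real.toNNReal θ : NNReal) : ℝ≥0∞) * d = c := by
    refine ⟨θ.num.toNat, θ.den, θ.den_pos, ?_⟩
    have h5 : (θ : ℝ) * θ.den = (θ.num.toNat : ℝ) := by
      have h6 : ((θ.num.toNat : ℤ) : ℝ) = (θ.num : ℝ) := by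
        rw [Int.toNat_of_nonneg (Rat.num_nonneg.2 hθ0)]
      rw [Int.cast_natCast] at h6
      rw [h6]
      exact_mod_cast Rat.mul_den_eq_num θ
    have h7 : Real.toNNReal θ * (θ.den : NNReal) = (θ.num.toNat : NNReal) := by
      apply NNReal.eq
      rw [NNReal.coe_mul, Real.coe_toNNReal _ (by exact_mod_cast hθ0)]
      simpa using h5
    exact_mod_cast h7
  set t : ℝ≥0∞ := ((Real.toNNReal θ : NNReal) : ℝ≥0∞)
  have hy : En (fun y : ℕ → Bool => gr (Sum.elim A y)) (fun y => gr y) :=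
    (En.self (G := fun y : ℕ → Bool => gr (Sum.elim A y))).comp ((sumInr.comp fst).pair snd)
  obtain ⟨W, hW, hP⟩ := ((en_cyl L (α := ℕ × Bool)).trans hy).and (En.ofApp (hE n))
  let G : List Bool × ((ℕ ⊕ ℕ) × Bool) → Prop := fun z =>
    Sum.elim (fun i => A i = z.2.2) (fun i => z.1[i]? = some z.2.2) z.2.1
  have hG : En (fun _ : Unit => gr A) (fun _ => G) := by
    have e1 : En (fun _ : Unit => gr A) (fun _ (z : (List Bool × ((ℕ ⊕ ℕ) × Bool)) × ℕ) =>
        (z.1.2.1 = Sum.inl z.2 ∧ gr A (z.2, z.1.2.2)) ∨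
          (z.1.2.1 = Sum.inr z.2 ∧ z.1.1[z.2]? = some z.1.2.2)) :=
      ((En.prim (Primrec.eq.comp (fst.comp (snd.comp fst)) (sumInl.comp snd))).and
        (En.self.comp (snd.pair (snd.comp (snd.comp fst))))).or
        (En.prim ((Primrec.eq.comp (fst.comp (snd.comp fst)) (sumInr.comp snd)).and
          (Primrec.eq.comp (list_getElem?.comp (fst.comp fst) snd)
            (option_some.comp (snd.comp (snd.comp fst))))))
    refine e1.ex.of_eq ?_
    rintro _ ⟨σ, i | i, b⟩ <;> simp [G, gr]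
  have hOK := hG.app2 hW
  have hC := ((hOK.comp ((fst.comp fst).pair snd)).count
    (f := fun z : (ℕ × Bool) × ℕ => allStr z.2) (primrec_allStr.comp snd)
    (g := fun z => c * 2 ^ z.2 / d)
    (nat_div.comp (nat_mul.comp (const c) (primrec_pow2.comp snd)) (const d))).ex
  refine hC.of_eq ?_
  intro _ q
  let U : ℕ → Set (ℕ → Bool) := fun k => {y | app W (fun r => G (pre k y, r)) q}
  have hcount : ∀ k, (c * 2 ^ k / d < (allStr k).countP
      (fun σ => decide (app W (fun r => G (σ, r)) q))) ↔ t < mu ℕ (U k) := by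
    intro k
    have h5 := mu_pre k (fun σ => app W (fun r => G (σ, r)) q)
    rw [Nat.div_lt_iff_lt_mul hd, ← Nat.cast_lt (α := ℝ≥0∞)]
    push_cast
    rw [← h5, ← hcd, mul_assoc, mul_comm (2 ^ k), mul_assoc, mul_comm (d : ℝ≥0∞)]
    exact ENNReal.mul_lt_mul_iff_left (by simp [hd.ne']) (by finiteness)
  have hget : ∀ (k i : ℕ) (y : ℕ → Bool) (b : Bool), (pre k y)[i]? = some b ↔ i < k ∧ y i = b := by
    intro k i y b
    by_cases hi : i < k <;> simp [pre, hi]
  have hU : (⋃ k, U k) = {y | app W (gr (Sum.elim A y)) q} := by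
    ext y
    simp only [mem_iUnion, U, mem_ofPred_eq]
    constructor
    · rintro ⟨k, w, l, h5, h6⟩
      refine ⟨w, l, fun r hr => ?_, h6⟩
      have := h5 r hr
      rcases r with ⟨i | i, b⟩
      · exact this
      · exact ((hget _ _ _ _).1 this).2
    · rintro ⟨w, l, h5, h6⟩
      refine ⟨(l.map (fun r => Sum.elim id id r.1)).sum + 1, w, l, fun r hr => ?_, h6⟩
      have h7 := h5 r hr
      have h8 := List.le_sum_of_mem (List.mem_map_of_mem (f := fun r => Sum.elim id id r.1) hr)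
      rcases r with ⟨i | i, b⟩
      · exact h7
      · exact (hget _ _ _ _).2 ⟨Nat.lt_succ_of_le h8, h7⟩
  have hmono : Monotone U := by
    rintro k k' hk y ⟨w, l, h5, h6⟩
    refine ⟨w, l, fun r hr => ?_, h6⟩
    have := h5 r hr
    rcases r with ⟨i | i, b⟩
    · exact this
    · exact (hget _ _ _ _).2 ⟨((hget _ _ _ _).1 this).1.trans_le hk, ((hget _ _ _ _).1 this).2⟩
  have hsup := hmono.measure_iUnion (μ := mu ℕ)
  rw [hU] at hsup
  simp only [hcount]
  rw [← lt_iSup_iff, ← hsup]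
  constructor
  · intro h5
    by_contra h6
    refine absurd (h5.trans_le (measure_mono ?_)) (not_lt.2 hθ1.le)
    intro y hy
    have h7 := (hP y q).2 hy
    exact Or.inr ⟨h7.1, fun h8 => h6 ((h8 q).2 h7.2)⟩
  · intro h5
    refine hθ2.trans_le (measure_mono ?_)
    rintro y ⟨h6, h7⟩
    exact (hP y q).1 ⟨h7, (h6 q).1 h5⟩

theorem sacks (ι : Type) [Primcodable ι] {a b : Degree} (h : ¬ b ≤ a) :
    mu ι {y | b ≤ a ⊔ deg y} = 0 := by
  have h1 := sacks_nat (rep a) (rep b) (by rwa [← deg_le, deg_rep, deg_rep])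
  let f : (ℕ → Bool) →+ (ι → Bool) :=
    { toFun := fun z i => z (Encodable.encode i), map_zero' := rfl, map_add' := fun _ _ => rfl }
  have hf := mp_hom f (continuous_pi fun i => continuous_apply _)
    (fun x => ⟨hat x, funext (hat_encode x)⟩)
  have hm : MeasurableSet {y : ι → Bool | b ≤ a ⊔ deg y} :=
    (MD.const b).le ((MD.const a).sup (MD.of_deg measurable_id))
  rw [← hf.measure_preimage hm.nullMeasurableSet]
  refine measure_mono_null ?_ h1
  intro z hz
  have h2 : deg (f z) ≤ deg z := deg_le.2 (Red.comp Primrec.encode fun _ => rfl)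
  show Red _ _
  rw [← deg_le, deg_sum, deg_rep, deg_rep]
  exact le_trans hz (sup_le_sup_left h2 _)

end Vale.Agent.P327
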