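import Vale.Agent.P327.Gap
import Vale.Agent.P327.Sacks

/-! Approximating machines and error correction by majority vote. -/

namespace Vale.Agent.P327

open Primrec MeasureTheory Set
open scoped symmDiff ENNReal

variable {κ γ : Type} [Primcodable κ] [Primcodable γ]

theorem En.finite {T β α I : Type} [Primcodable β] [Primcodable α] [Primcodable I] [Finite I]
    {G : T → β → Prop} {p : I → T → α → Prop} (h : ∀ i, En G (p i)) :
    En G (fun t (z : I × α) => p z.1 t z.2) := by
  have key : ∀ l : List I, En G (fun t (z : I × α) => z.1 ∈ l ∧ p z.1 t z.2) := by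
    intro l
    induction l with
    | nil => exact (En.prim (pp_const False)).of_eq (by simp)
    | cons i l ih =>
      refine (((En.prim (Primrec.eq.comp fst (const i))).and ((h i).comp snd)).or ih).of_eq ?_
      intro t z
      simp only [List.mem_cons]
      constructor
      · rintro (⟨h1, h2⟩ | ⟨h1, h2⟩)
        · exact ⟨Or.inl h1, h1 ▸ h2⟩
        · exact ⟨Or.inr h1, h2⟩
      · rintro ⟨h1 | h1, h2⟩
        · exact Or.inl ⟨h1, h1 ▸ h2⟩
        · exact Or.inr ⟨h1, h2⟩
  have := Fintype.ofFinite I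
  exact (key (Finset.univ.toList)).of_eq (by simp)

theorem approx_op {F : XX → κ → Bool} {K : (κ → Bool) → XX} (hF : Measurable F)
    (hK : Measurable K) (hKF : ∀ᵐ x ∂mu _, K (F x) = x) {p : XX → γ → Prop}
    (hp : ∀ c, Measurable (fun x => p x c)) (h : ∀ᵐ x ∂mu _, En1 (gr (F x)) (p x))
    {ε : ℝ≥0∞} (hε : ε ≠ 0) :
    ∃ W, PrimrecPred W ∧ ∃ Bad, MeasurableSet Bad ∧ mu _ Bad ≤ ε ∧
      ∀ x ∉ Bad, ∀ c, p x c ↔ app W (gr (F x)) c := by
  obtain ⟨E, hE, hE'⟩ := exists_enum_primrecPred ((ℕ × List (κ × Bool)) × γ)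
  have h2 : ε / 2 ≠ 0 := by simpa using hε
  let A : ℕ → Set XX := fun n => {x | ∀ c, p x c ↔ app (E n) (gr (F x)) c}
  have hA : ∀ n, MeasurableSet (A n) := fun n => measurableSet_setOfPred.2
    (Measurable.forall fun c => (hp c).iff (measurable_app hF _ c))
  let B : ℕ → Set XX := fun k => {x | ∀ n < k, x ∉ A n}
  have hB : ∀ k, MeasurableSet (B k) := fun k => measurableSet_setOfPred.2
    (Measurable.forall fun n => Measurable.forall fun _ =>
      (measurableSet_setOfPred.1 (hA n)).not)
  have hB0 : mu _ (⋂ k, B k) = 0 := by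
    refine measure_mono_null ?_ (ae_iff.1 h)
    rintro x hx ⟨W, hW, h3⟩
    obtain ⟨n, rfl⟩ := hE' W hW
    exact mem_iInter.1 hx (n + 1) n n.lt_succ_self (h3 ())
  have ht := tendsto_measure_iInter_atTop (μ := mu _) (fun k => (hB k).nullMeasurableSet)
    (fun k k' hk x hx n hn => hx n (hn.trans_le hk)) ⟨0, measure_ne_top _ _⟩
  rw [hB0] at ht
  obtain ⟨k, hk⟩ := (ht.eventually (gt_mem_nhds (pos_iff_ne_zero.2 h2))).exists
  obtain ⟨δ, hδ, hδ'⟩ := ENNReal.exists_pos_sum_of_countable h2 ℕ
  have h3 : ∀ n, ∃ L, (mu _).map F ((K ⁻¹' A n) ∆ cyl L) < δ n := fun n =>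
    approx_cyl _ (hK (hA n)) (by simpa using (hδ n).ne')
  choose L hL using h3
  have hm : ∀ n, MeasurableSet ((K ⁻¹' A n) ∆ cyl (L n)) := fun n =>
    (hK (hA n)).symmDiff (isOpen_cyl _).measurableSet
  have hen : ∀ k, En (fun y : κ → Bool => gr y)
      (fun y c => ∃ n < k, y ∈ cyl (L n) ∧ app (E n) (gr y) c) := by
    intro k
    induction k with
    | zero => exact (En.prim (pp_const False)).of_eq (by simp)
    | succ k ih =>
      refine (ih.or ((en_cyl (L k)).and (En.ofApp (hE k)))).of_eq ?_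
      intro y c
      rw [Nat.exists_lt_succ_right]
  obtain ⟨W, hW, hW'⟩ := hen k
  refine ⟨W, hW, (B k ∪ ⋃ n, F ⁻¹' ((K ⁻¹' A n) ∆ cyl (L n))) ∪ {x | K (F x) = x}ᶜ,
    ((hB k).union (MeasurableSet.iUnion fun n => hF (hm n))).union
      (measurableSet_eq_fun (hK.comp hF) measurable_id).compl, ?_, ?_⟩
  · refine (measure_union_le _ _).trans ?_
    rw [show mu _ {x | K (F x) = x}ᶜ = 0 from ae_iff.1 hKF, add_zero, ← ENNReal.add_halves ε]
    refine (measure_union_le _ _).trans (add_le_add hk.le ?_)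
    refine (measure_iUnion_le _).trans (le_trans (ENNReal.tsum_le_tsum fun n => ?_) hδ'.le)
    rw [← Measure.map_apply hF (hm n)]
    exact (hL n).le
  · intro x hx c
    simp only [mem_union, mem_iUnion, mem_preimage, mem_compl_iff, mem_ofPred_eq, not_or,
      not_exists, not_not, mem_symmDiff, B, not_forall] at hx
    obtain ⟨⟨⟨n, hn, h4⟩, h5⟩, h6⟩ := hx
    simp only [h6] at h5
    rw [← hW']
    constructor
    · intro h7
      exact ⟨n, hn, by have := h5 n; tauto, (h4 c).1 h7⟩
    · rintro ⟨m, -, h7, h8⟩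
      have h9 : x ∈ A m := by
        by_contra h10
        exact (h5 m).2 ⟨h7, h10⟩
      exact (h9 c).2 h8

theorem countP_le_three {α : Type} (U : List α) (p b1 b2 b3 : α → Bool)
    (h : ∀ u ∈ U, p u = true → b1 u = true ∨ b2 u = true ∨ b3 u = true) :
    U.countP p ≤ U.countP b1 + U.countP b2 + U.countP b3 := by
  induction U with
  | nil => simp
  | cons u U ih =>
    have h1 := ih fun v hv => h v (List.mem_cons_of_mem _ hv)
    have h2 := h u List.mem_cons_self
    simp only [List.countP_cons]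
    by_cases e0 : p u = true
    · rcases h2 e0 with e | e | e <;> simp only [e0, e, if_true] <;> omega
    · simp only [e0]; simp only [Bool.false_eq_true, if_false]; omega

open Classical in
theorem majority {α : Type} (U : List α) (p b1 b2 b3 : α → Prop) (r : Prop)
    (h1 : ¬ U.length ≤ 10 * U.countP (fun u => decide (b1 u)))
    (h2 : ¬ U.length ≤ 10 * U.countP (fun u => decide (b2 u)))
    (h3 : ¬ U.length ≤ 10 * U.countP (fun u => decide (b3 u)))
    (h : ∀ u ∈ U, ¬ b1 u → ¬ b2 u → ¬ b3 u → (p u ↔ r)) :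
    U.length / 2 < U.countP (fun u => decide (p u)) ↔ r := by
  constructor
  · intro h4
    by_contra h5
    have := countP_le_three U (fun u => decide (p u)) (fun u => decide (b1 u))
      (fun u => decide (b2 u)) (fun u => decide (b3 u)) fun u hu => by
        have := h u hu
        simp only [decide_eq_true_eq]; tauto
    omega
  · intro h5
    have := countP_le_three U (fun u => decide (¬ decide (p u) = true)) (fun u => decide (b1 u))
      (fun u => decide (b2 u)) (fun u => decide (b3 u)) fun u hu => by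
        have := h u hu
        simp only [decide_eq_true_eq]; tauto
    have h6 := List.length_eq_countP_add_countP (fun u => decide (p u)) (l := U)
    omega

abbrev Fr : Type := ℕ × Bool × List Gen
abbrev Qu (κ : Type) : Type := ((Bool × Gen) × (κ × Bool)) ⊕ Bool

/-- The four new frames. -/
def four (j : ℕ) (sd : Bool) (w : List Gen) (u : List Bool) (rest : List Fr) : List Fr :=
  (j, !sd, gW u) :: (j, sd, w.take (w.length - 6)) :: (j, sd, w.drop (w.length - 6)) ::
    (j, !sd, gW u) :: rest

open Classical in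
/-- One step of the stack machine. -/
def Step (c : ℕ) (W : (ℕ × List (κ × Bool)) × Qu κ → Prop) (G : κ × Bool → Prop)
    (P : List Fr × (κ × Bool) → Prop) (z : List Fr × (κ × Bool)) : Prop :=
  (z.1 = [] ∧ G z.2) ∨
  (∃ y : Bool × List Fr, z.1 = (0, y.1, []) :: y.2 ∧ P (y.2, z.2)) ∨
  (∃ y : (Bool × Gen) × (List Gen × List Fr), z.1 = (0, y.1.1, y.1.2 :: y.2.1) :: y.2.2 ∧
    app W (fun r => P ((0, y.1.1, y.2.1) :: y.2.2, r)) (Sum.inl (y.1, z.2))) ∨
  (∃ y : Fr × List Fr, z.1 = (y.1.1 + 1, y.1.2) :: y.2 ∧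
    (allStr (y.1.1 + c)).length / 2 < (allStr (y.1.1 + c)).countP
      (fun u => decide (P (four y.1.1 y.1.2.1 y.1.2.2 u y.2, z.2))))

theorem primrec_four : Primrec (fun v : (Fr × List Fr) × List Bool =>
    four v.1.1.1 v.1.1.2.1 v.1.1.2.2 v.2 v.1.2) := by
  have hj : Primrec (fun v : (Fr × List Fr) × List Bool => v.1.1.1) := fst.comp (fst.comp fst)
  have hs : Primrec (fun v : (Fr × List Fr) × List Bool => v.1.1.2.1) :=
    fst.comp (snd.comp (fst.comp fst))
  have hw : Primrec (fun v : (Fr × List Fr) × List Bool => v.1.1.2.2) :=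
    snd.comp (snd.comp (fst.comp fst))
  have hl := nat_sub.comp (list_length.comp hw) (const 6)
  have h1 := hj.pair ((Primrec.not.comp hs).pair (primrec_gW.comp snd))
  exact list_cons.comp h1 (list_cons.comp (hj.pair (hs.pair (list_take.comp hl hw)))
    (list_cons.comp (hj.pair (hs.pair (list_drop.comp hl hw)))
      (list_cons.comp h1 (snd.comp fst))))

theorem exists_machine (c : ℕ) {W : (ℕ × List (κ × Bool)) × Qu κ → Prop} (hW : PrimrecPred W)
    (G : κ × Bool → Prop) :
    ∃ P : List Fr × (κ × Bool) → Prop, En1 G P ∧ ∀ z, P z ↔ Step c W G P z := by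
  let T := Unit × (List Fr × (κ × Bool) → Prop)
  let O : T → (κ × Bool) ⊕ (List Fr × (κ × Bool)) → Prop := fun t => Sum.elim G t.2
  have hG : En O (fun _ => G) := En.inl (G := fun _ : T => G) (H := fun t => t.2)
  have hP : En O (fun t => t.2) := En.inr (G := fun _ : T => G) (H := fun t => t.2)
  have h1 : En O (fun _ (z : List Fr × (κ × Bool)) => z.1 = [] ∧ G z.2) :=
    (En.prim (Primrec.eq.comp fst (const []))).and (hG.comp snd)
  have h2 : En O (fun t (v : (List Fr × (κ × Bool)) × (Bool × List Fr)) =>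
      v.1.1 = (0, v.2.1, []) :: v.2.2 ∧ t.2 (v.2.2, v.1.2)) :=
    (En.prim (Primrec.eq.comp (fst.comp fst) (list_cons.comp
      ((const 0).pair ((fst.comp snd).pair (const []))) (snd.comp snd)))).and
      (hP.comp ((snd.comp snd).pair (snd.comp fst)))
  have h3 : En O (fun t (v : (List Fr × (κ × Bool)) × ((Bool × Gen) × (List Gen × List Fr))) =>
      v.1.1 = (0, v.2.1.1, v.2.1.2 :: v.2.2.1) :: v.2.2.2 ∧
        app W (fun r => t.2 ((0, v.2.1.1, v.2.2.1) :: v.2.2.2, r)) (Sum.inl (v.2.1, v.1.2))) :=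
    (En.prim (Primrec.eq.comp (fst.comp fst) (list_cons.comp
      ((const 0).pair ((fst.comp (fst.comp snd)).pair (list_cons.comp (snd.comp (fst.comp snd))
        (fst.comp (snd.comp snd))))) (snd.comp (snd.comp snd))))).and
      ((hP.app2 hW).comp ((sumInl.comp ((fst.comp snd).pair (snd.comp fst))).pair
        (list_cons.comp ((const 0).pair ((fst.comp (fst.comp snd)).pair (fst.comp (snd.comp snd))))
          (snd.comp (snd.comp snd)))))
  have hs : Primrec (fun v : (List Fr × (κ × Bool)) × (Fr × List Fr) => allStr (v.2.1.1 + c)) :=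
    primrec_allStr.comp (nat_add.comp (fst.comp (fst.comp snd)) (const c))
  have h4' : En O (fun t (v : ((List Fr × (κ × Bool)) × (Fr × List Fr)) × List Bool) =>
      t.2 (four v.1.2.1.1 v.1.2.1.2.1 v.1.2.1.2.2 v.2 v.1.2.2, v.1.1.2)) :=
    hP.comp ((primrec_four.comp ((snd.comp fst).pair snd)).pair (snd.comp (fst.comp fst)))
  have h4 := (En.prim (Primrec.eq.comp (fst.comp fst) (list_cons.comp
      ((Primrec.succ.comp (fst.comp (fst.comp snd))).pair (snd.comp (fst.comp snd)))
      (snd.comp snd)))).and (h4'.count hs (nat_div.comp (list_length.comp hs) (const 2)))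
  have h5 : En O (fun t => Step c W G t.2) := h1.or (h2.ex.or (h3.ex.or h4.ex))
  obtain ⟨P, hP1, hP2⟩ := En.fix (G := fun _ : Unit => G) (Φ := fun _ P => Step c W G P) h5
  exact ⟨P (), hP1, hP2 ()⟩

open Classical in
/-- Points that are often moved into `S`. -/
def Many (sd : Bool) (U : List (List Bool)) (S : Set XX) : Set XX :=
  {x | U.length ≤ 10 * U.countP (fun u => decide (act sd (gW u) x ∈ S))}

omit [Primcodable κ] in
theorem machine_correct {c : ℕ} {W : (ℕ × List (κ × Bool)) × Qu κ → Prop} {G : κ × Bool → Prop}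
    {P : List Fr × (κ × Bool) → Prop} (hP : ∀ z, P z ↔ Step c W G P z) {F : XX → κ → Bool}
    {Bad : Set XX}
    (hBad : ∀ y ∉ Bad, ∀ sd s q, gr (F (gen sd s y)) q ↔ app W (gr (F y)) (Sum.inl ((sd, s), q)))
    {S : ℕ → Set XX} (h0 : ∀ sd w y, w.length ≤ 6 * c + 6 → y ∉ S 0 → act sd w y ∉ Bad)
    (h1 : ∀ j, S j ⊆ S (j + 1))
    (h2 : ∀ j sd w y, w.length ≤ 6 → y ∉ S (j + 1) →
      act sd w y ∉ Many (!sd) (allStr (j + c)) (S j))
    (j : ℕ) : ∀ sd w rest y, w.length ≤ 6 * (j + c) + 6 → y ∉ S j → act sd w y ∉ S j →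
      (∀ q, P (rest, q) ↔ gr (F y) q) → ∀ q, P ((j, sd, w) :: rest, q) ↔ gr (F (act sd w y)) q := by
  induction j with
  | zero =>
    intro sd w rest y hw hy hy' hr
    clear hy'
    induction w with
    | nil =>
      intro q
      rw [hP]
      simp [Step, hr]
    | cons s w ih =>
      intro q
      have hw' : w.length ≤ 6 * c + 6 := by simp at hw; omega
      have e := funext fun q => propext (ih (by omega) q)
      rw [hP, act_cons, hBad _ (h0 sd w y hw' hy), ← e]
      simp [Step]
  | succ j ih =>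
    intro sd w rest y hw hy hy' hr q
    rw [hP]
    have e : Step c W G P ((j + 1, sd, w) :: rest, q) ↔ (allStr (j + c)).length / 2 <
        (allStr (j + c)).countP (fun u => by classical exact decide (P (four j sd w u rest, q))) := by
      cases sd <;> simp [Step]
    rw [e]
    have hsplit : ∀ x, act sd w x =
        act sd (w.take (w.length - 6)) (act sd (w.drop (w.length - 6)) x) := fun x => by
      rw [← act_append, List.take_append_drop]
    refine majority _ _ _ _ _ _ (h2 j sd [] y (by simp) hy)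
      (h2 j sd (w.drop (w.length - 6)) y (by simp; omega) hy)
      (h2 j sd [] (act sd w y) (by simp) hy') ?_
    intro u hu b1 b2 b3
    simp only [act_nil] at b1 b3
    have hl : (gW u).length ≤ 6 * (j + c) + 6 := by rw [length_gW, mem_allStr.1 hu]; omega
    have a1 := ih (!sd) (gW u) rest y hl (fun h => hy (h1 j h)) b1 hr
    have a2 := ih sd (w.drop (w.length - 6)) _ _ (by simp; omega) b1 (by rwa [act_comm]) a1
    rw [act_comm] at a2
    have a3 := ih sd (w.take (w.length - 6)) _ _ (by simp; omega) b2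
      (by rwa [act_comm, ← hsplit]) a2
    rw [act_comm, ← hsplit] at a3
    have a4 := ih (!sd) (gW u) _ _ hl b3 (by rw [act_gW_gW]; exact fun h => hy' (h1 j h)) a3
    rw [act_gW_gW] at a4
    exact a4 q

theorem red_bits {c : ℕ} {W : (ℕ × List (κ × Bool)) × Qu κ → Prop} (hW : PrimrecPred W)
    {F : XX → κ → Bool} {Bad : Set XX}
    (hBad : ∀ y ∉ Bad, ∀ sd s q, gr (F (gen sd s y)) q ↔ app W (gr (F y)) (Sum.inl ((sd, s), q)))
    (hBad' : ∀ y ∉ Bad, ∀ b, y i0 = b ↔ app W (gr (F y)) (Sum.inr b))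
    {S : ℕ → Set XX} (h0 : ∀ sd w y, w.length ≤ 6 * c + 6 → y ∉ S 0 → act sd w y ∉ Bad)
    (h1 : ∀ j, S j ⊆ S (j + 1))
    (h2 : ∀ j sd w y, w.length ≤ 6 → y ∉ S (j + 1) →
      act sd w y ∉ Many (!sd) (allStr (j + c)) (S j))
    {x : XX} (hx : x ∉ ⋃ j, S j)
    (hx' : ∀ n b, x ∉ Many false ((allStr (n + c)).map (cb n b)) (⋃ j, S j)) :
    Red (fun n => x (pos n)) (F x) := by
  classical
  obtain ⟨P, hP1, hP2⟩ := exists_machine c hW (gr (F x))
  let R : Bool → ℕ → List Bool → Bool → Prop := fun b n u v =>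
    app W (fun r => P ([((gW (cb n b u)).length, false, gW (cb n b u))], r)) (Sum.inr v)
  have hR : ∀ b n u, act false (gW (cb n b u)) x ∉ ⋃ j, S j →
      ∀ v, R b n u v ↔ act false (gW (cb n b u)) x i0 = v := by
    intro b n u h v
    simp only [mem_iUnion, not_exists] at h hx
    have := machine_correct hP2 hBad h0 h1 h2 (gW (cb n b u)).length false (gW (cb n b u)) [] x
      (by omega) (hx _) (h _) (fun q => by rw [hP2]; simp [Step])
    have e := funext fun q => propext (this q)
    simp only [R, e]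
    exact (hBad' _ (h0 false [] _ (by simp) (h 0)) v).symm
  have hrep : Primrec (fun n => List.replicate n false) :=
    (list_map list_range (Primrec₂.const false)).of_eq (by simp)
  have hRe : ∀ b, En (fun _ : Unit => gr (F x))
      (fun _ (z : (ℕ × List Bool) × Bool) => R b z.1.1 z.1.2 z.2) := by
    intro b
    have hg : Primrec (fun z : (ℕ × List Bool) × Bool => gW (cb z.1.1 b z.1.2)) :=
      primrec_gW.comp (list_append.comp (hrep.comp (fst.comp fst))
        (list_cons.comp (const b) (snd.comp fst)))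
    exact (En.app2 hP1 hW).comp ((sumInr.comp snd).pair
      (list_cons.comp ((list_length.comp hg).pair ((const false).pair hg)) (const [])))
  have h3 : En (fun _ : Unit => gr (F x))
      (fun _ (z : ((ℕ × Bool) × List Bool) × (Bool × Bool)) => z.1.1.2 = xor z.2.1 z.2.2 ∧
        R true z.1.1.1 z.1.2 z.2.1 ∧ R false z.1.1.1 z.1.2 z.2.2) :=
    (En.prim (Primrec.eq.comp (snd.comp (fst.comp fst))
      ((dom_bool₂ xor).comp (fst.comp snd) (snd.comp snd)))).and
      (((hRe true).comp (((fst.comp (fst.comp fst)).pair (snd.comp fst)).pair (fst.comp snd))).and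
        ((hRe false).comp (((fst.comp (fst.comp fst)).pair (snd.comp fst)).pair (snd.comp snd))))
  have hs : Primrec (fun v : ℕ × Bool => allStr (v.1 + c)) :=
    primrec_allStr.comp (nat_add.comp fst (const c))
  refine (h3.ex.count hs (nat_div.comp (list_length.comp hs) (const 2))).of_eq ?_
  rintro _ ⟨n, v⟩
  have e1 := hx' n true
  have e2 := hx' n false
  simp only [Many, mem_ofPred_eq, List.length_map, List.countP_map] at e1 e2
  refine majority _ _ _ _ _ _ e1 e2 e2 ?_
  intro u _ b1 b2 _
  simp only [hR true n u b1, hR false n u b2, gr, bit_formula n u x]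
  simp [eq_comm]

end Vale.Agent.P327
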