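import Vale.Agent.P327.Code
import Vale.Agent.P327.Sacks

/-! Every automorphism has a measurable representation almost everywhere. -/

namespace Vale.Agent.P327

open Primrec MeasureTheory Set

variable {ι : Type} [Primcodable ι]

/-- Full outer measure. -/
def Full (Z : Set (ι → Bool)) : Prop := ∀ N, MeasurableSet N → mu ι N ≠ 0 → ∃ x ∈ N, x ∈ Z

theorem diff_null_ne {Ω : Type} [MeasurableSpace Ω] {μ : Measure Ω} {N M : Set Ω} (h : μ N ≠ 0)
    (hM : μ M = 0) : μ (N \ toMeasurable μ M) ≠ 0 := by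
  rwa [measure_sdiff_null (by rwa [measure_toMeasurable])]

theorem Full.null {Z N : Set (ι → Bool)} (hZ : Full Z) (hN : MeasurableSet N)
    (h : mu ι (N ∩ Z) = 0) : mu ι N = 0 := by
  by_contra h0
  obtain ⟨x, hx, hxZ⟩ := hZ _ (hN.diff (measurableSet_toMeasurable _ _)) (diff_null_ne h0 h)
  exact hx.2 (subset_toMeasurable _ _ ⟨hx.1, hxZ⟩)

theorem Full.pick {Ω : Type} [MeasurableSpace Ω] {ν : Measure Ω} [SFinite ν] {Z : Set (ι → Bool)}
    (hZ : Full Z) {S : Set ((ι → Bool) × Ω)} (hS : MeasurableSet S) (h0 : (mu ι).prod ν S ≠ 0)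
    {p : (ι → Bool) → Prop} (hp : ∀ᵐ u ∂mu ι, p u) :
    ∃ u ∈ Z, p u ∧ ν (Prod.mk u ⁻¹' S) ≠ 0 := by
  have h1 : mu ι {u | ν (Prod.mk u ⁻¹' S) ≠ 0} ≠ 0 := fun h =>
    h0 ((Measure.measure_prod_null hS).2 (ae_iff.2 h))
  have h2 : MeasurableSet {u | ν (Prod.mk u ⁻¹' S) ≠ 0} :=
    (measurable_measure_prodMk_left hS (measurableSet_singleton 0)).compl
  obtain ⟨u, hu, huZ⟩ := hZ _ (h2.diff (measurableSet_toMeasurable _ _))
    (diff_null_ne h1 (ae_iff.1 hp))
  refine ⟨u, huZ, ?_, hu.1⟩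
  by_contra h3
  exact hu.2 (subset_toMeasurable _ _ h3)

/-- Splitting of the index set. -/
def sp (z : ℕ × ι) : ι ⊕ (ℕ × ι) := Nat.casesOn z.1 (Sum.inl z.2) (fun k => Sum.inr (k, z.2))

/-- Prepending a column. -/
def cons (u : ι → Bool) (t : ℕ × ι → Bool) : ℕ × ι → Bool := fun z => Sum.elim u t (sp z)

theorem deg_cons (u : ι → Bool) (t : ℕ × ι → Bool) : deg (cons u t) = deg u ⊔ deg t := by
  refine le_antisymm ?_ (sup_le (deg_le.2 ?_) (deg_le.2 ?_))
  · rw [← deg_sum]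
    exact deg_le.2 (Red.comp (f := sp) (nat_casesOn fst (sumInl.comp snd)
      (sumInr.comp (snd.pair (snd.comp fst))).to₂) fun _ => rfl)
  · exact Red.comp (f := fun i => (0, i)) ((const 0).pair Primrec.id) fun _ => rfl
  · exact Red.comp (f := fun z => (z.1 + 1, z.2)) ((Primrec.succ.comp fst).pair snd) fun _ => rfl

omit [Primcodable ι] in
theorem continuous_cons : Continuous (fun z : (ι → Bool) × (ℕ × ι → Bool) => cons z.1 z.2) := by
  refine continuous_pi ?_
  rintro ⟨_ | k, i⟩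
  · exact (continuous_apply i).comp continuous_fst
  · exact (continuous_apply (k, i)).comp continuous_snd

theorem mp_cons : MeasurePreserving (fun z : (ι → Bool) × (ℕ × ι → Bool) => cons z.1 z.2)
    ((mu ι).prod (mu (ℕ × ι))) (mu (ℕ × ι)) := by
  let f : (ι → Bool) × (ℕ × ι → Bool) →+ (ℕ × ι → Bool) :=
    { toFun := fun z => cons z.1 z.2
      map_zero' := by funext ⟨k, i⟩; cases k <;> rfl
      map_add' := fun _ _ => by funext ⟨k, i⟩; cases k <;> rfl }
  refine AddMonoidHom.measurePreserving (f := f) continuous_cons ?_ (by simp)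
  intro y
  refine ⟨(fun i => y (0, i), fun z => y (z.1 + 1, z.2)), ?_⟩
  funext ⟨k, i⟩
  cases k <;> rfl

theorem jstep (π : Degree ≃o Degree) {f g h : (ι → Bool) → Degree} (hf : MD f) (hg : MD g)
    (hh : MD h) (hZ : Full {x | π (deg x) = h x}) (hJ : ∀ᵐ v ∂mu ι, ¬ f v ≤ g v) :
    ∀ᵐ u ∂mu ι, ∀ᵐ v ∂mu ι, ¬ f v ≤ g v ⊔ h u := by
  rw [Measure.ae_ae_comm (p := fun u v => ¬ f v ≤ g v ⊔ h u)
    ((hf.comp measurable_snd).le ((hg.comp measurable_snd).sup (hh.comp measurable_fst))).compl]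
  filter_upwards [hJ] with v hv
  rw [ae_iff]
  simp only [not_not]
  refine hZ.null ((MD.const _).le ((MD.const _).sup hh)) ?_
  refine measure_mono_null ?_ (sacks ι (a := π.symm (g v)) (b := π.symm (f v)) (by simpa using hv))
  rintro u ⟨h1, h2⟩
  simp only [mem_ofPred_eq] at h1 h2 ⊢
  have := π.symm.monotone h1
  rwa [π.symm.map_sup, ← h2, π.symm_apply_apply] at this

theorem diag_step (π : Degree ≃o Degree) {f g : (ι → Bool) → Degree} (hf : MD f) (hg : MD g)
    (hZf : Full {x | π (deg x) = f x}) (hZg : Full {x | π (deg x) = g x})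
    {θ : (ℕ × ι → Bool) → (ℕ × ι → Bool)} (hθ : Continuous θ) {P : Degree}
    (h1 : ∀ t, deg t ≤ deg (θ t)) (h2 : ∀ t, deg (θ t) ≤ P ⊔ deg t)
    {K : Set (ℕ × ι → Bool)} (hK : IsCompact K) (hK0 : mu _ K ≠ 0)
    (hJ : ∀ᵐ v ∂mu ι, ¬ f v ≤ g v ⊔ π P) {Φ : (ℕ × ι → Bool) → Degree} (hΦ : MD Φ) :
    ∃ u K', IsCompact K' ∧ mu _ K' ≠ 0 ∧
      (∀ t ∈ K', cons u t ∈ K ∧ π (deg (θ (cons u t))) ≠ Φ (θ (cons u t))) ∧
      ∀ᵐ v ∂mu ι, ¬ f v ≤ g v ⊔ π (P ⊔ deg u) := by
  let A : Set ((ι → Bool) × (ℕ × ι → Bool)) := (fun z => cons z.1 z.2) ⁻¹' K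
  let B : Set ((ι → Bool) × (ℕ × ι → Bool)) := {z | f z.1 ≤ Φ (θ (cons z.1 z.2))}
  have hA : MeasurableSet A := continuous_cons.measurable hK.measurableSet
  have hB : MeasurableSet B :=
    (hf.comp measurable_fst).le (hΦ.comp (hθ.comp continuous_cons).measurable)
  have hA0 : (mu ι).prod (mu (ℕ × ι)) A ≠ 0 := by
    rwa [mp_cons.measure_preimage hK.measurableSet.nullMeasurableSet]
  have hgP := hg.sup (MD.const (π P))
  by_cases hc : (mu ι).prod (mu (ℕ × ι)) (A ∩ B) = 0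
  · have h3 : (mu ι).prod (mu (ℕ × ι)) (A \ B) ≠ 0 := by
      intro h3
      apply hA0
      rw [← inter_union_sdiff A B]
      exact measure_union_null hc h3
    obtain ⟨u, hu, h4, h5⟩ := hZf.pick (hA.diff hB) h3 (jstep π hf hgP hf hZf hJ)
    obtain ⟨K', h6, h7, h8⟩ := (measurable_prodMk_left (hA.diff hB)).exists_lt_isCompact
      (pos_iff_ne_zero.2 h5)
    refine ⟨u, K', h7, h8.ne', fun t ht => ⟨(h6 ht).1, fun h9 => (h6 ht).2 ?_⟩, ?_⟩
    · show f u ≤ Φ (θ (cons u t))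
      rw [← h9, ← show π (deg u) = f u from hu]
      refine π.monotone (le_trans ?_ (h1 _))
      rw [deg_cons]; exact le_sup_left
    · rw [π.map_sup, show π (deg u) = f u from hu]; simpa only [sup_assoc] using h4
  · obtain ⟨u, hu, ⟨h4, h4'⟩, h5⟩ := hZg.pick (hA.inter hB) hc
      ((jstep π hf hgP hg hZg hJ).and hJ)
    have h10 : ¬ π.symm (f u) ≤ P ⊔ deg u := by
      rw [π.symm_apply_le, π.map_sup, show π (deg u) = g u from hu, sup_comm]; exact h4'
    obtain ⟨K', h6, h7, h8⟩ := ((measurable_prodMk_left (hA.inter hB)).diff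
      (measurableSet_toMeasurable _ _)).exists_lt_isCompact
      (pos_iff_ne_zero.2 (diff_null_ne h5 (sacks (ℕ × ι) h10)))
    refine ⟨u, K', h7, h8.ne', fun t ht => ⟨(h6 ht).1.1, fun h9 => (h6 ht).2 ?_⟩, ?_⟩
    · refine subset_toMeasurable _ _ ?_
      have h11 : f u ≤ Φ (θ (cons u t)) := (h6 ht).1.2
      rw [← h9, ← π.symm_apply_le] at h11
      refine h11.trans ((h2 _).trans ?_)
      rw [deg_cons, sup_assoc]
    · rw [π.map_sup, show π (deg u) = g u from hu]; simpa only [sup_assoc] using h4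

theorem diag (π : Degree ≃o Degree) {f g : (ι → Bool) → Degree} (hf : MD f) (hg : MD g)
    (hZf : Full {x | π (deg x) = f x}) (hZg : Full {x | π (deg x) = g x})
    (hJ : ∀ᵐ v ∂mu ι, ¬ f v ≤ g v) : False := by
  obtain ⟨F, hF, hF'⟩ := candidates π (ℕ × ι)
  let St := {s : ((ℕ × ι → Bool) → (ℕ × ι → Bool)) × Degree × Set (ℕ × ι → Bool) //
    Continuous s.1 ∧ (∀ t, deg t ≤ deg (s.1 t)) ∧ (∀ t, deg (s.1 t) ≤ s.2.1 ⊔ deg t) ∧
      IsCompact s.2.2 ∧ mu _ s.2.2 ≠ 0 ∧ ∀ᵐ v ∂mu ι, ¬ f v ≤ g v ⊔ π s.2.1}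
  have step : ∀ (n : ℕ) (s : St), ∃ s' : St, s'.1.1 '' s'.1.2.2 ⊆ s.1.1 '' s.1.2.2 ∧
      ∀ ω ∈ s'.1.1 '' s'.1.2.2, π (deg ω) ≠ deg (F n ω) := by
    rintro n ⟨⟨θ, P, K⟩, hθ, h1, h2, hK, hK0, hJ⟩
    obtain ⟨u, K', h3, h4, h5, h6⟩ := diag_step π hf hg hZf hZg hθ h1 h2 hK hK0 hJ
      (MD.of_deg (hF n))
    refine ⟨⟨(fun t => θ (cons u t), P ⊔ deg u, K'),
      hθ.comp (continuous_cons.comp (Continuous.prodMk_right u)), fun t => le_trans ?_ (h1 _),
      fun t => (h2 _).trans ?_, h3, h4, h6⟩, ?_, ?_⟩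
    · rw [deg_cons]; exact le_sup_right
    · rw [deg_cons, sup_assoc]
    · rintro _ ⟨t, ht, rfl⟩; exact ⟨_, (h5 t ht).1, rfl⟩
    · rintro _ ⟨t, ht, rfl⟩; exact (h5 t ht).2
  choose nx h1 h2 using step
  let s0 : St := ⟨(id, ⊥, univ), continuous_id, fun _ => le_rfl, fun _ => le_sup_right,
    isCompact_univ, by simp, by simpa using hJ⟩
  let s : ℕ → St := fun n => Nat.rec s0 nx n
  have hc : ∀ n, IsCompact ((s n).1.1 '' (s n).1.2.2) := fun n => (s n).2.2.2.2.1.image (s n).2.1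
  obtain ⟨ω, hω⟩ := IsCompact.nonempty_iInter_of_sequence_nonempty_isCompact_isClosed
    (fun n => (s n).1.1 '' (s n).1.2.2) (fun n => h1 n (s n))
    (fun n => (nonempty_of_measure_ne_zero (s n).2.2.2.2.2.1).image _) (hc 0)
    (fun n => (hc n).isClosed)
  obtain ⟨e, he⟩ := hF' ω (rep (π (deg ω))) (deg_rep _)
  exact h2 e (s e) ω (mem_iInter.1 hω (e + 1)) (by rw [he, deg_rep])

theorem exists_tau {H : Set (ι → Bool)} (hH : MeasurableSet H) (h0 : mu ι H ≠ 0) :
    ∃ τ : (ι → Bool) → (ι → Bool), Measurable τ ∧ (∀ x, deg (τ x) = deg x) ∧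
      (∀ᵐ x ∂mu ι, τ x ∈ H) ∧
      ∀ Z : Set (ι → Bool), (∀ N, MeasurableSet N → N ⊆ H → mu ι N ≠ 0 → ∃ x ∈ N, x ∈ Z) →
        Full (τ ⁻¹' Z) := by
  classical
  obtain ⟨d, hd, hd'⟩ := exists_enum_prim ι
  let p : ℕ → (ι → Bool) → Prop := fun n x => x + d n ∈ H ∨ ∀ m, x + d m ∉ H
  have hex : ∀ x, ∃ n, p n x := by
    intro x
    by_cases h : ∃ m, x + d m ∈ H
    · obtain ⟨m, hm⟩ := h; exact ⟨m, Or.inl hm⟩
    · exact ⟨0, Or.inr (by simpa using h)⟩
  have hm : ∀ n, Measurable (fun x => x + d n ∈ H) := fun n =>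
    measurableSet_setOfPred.1 (measurable_add_const (d n) hH)
  have hτ : Measurable (fun x => x + d (Nat.find (hex x))) :=
    Measurable.find (f := fun n x => x + d n) (fun n => measurable_add_const _)
      (fun n => measurableSet_setOfPred.2 ((hm n).or (Measurable.forall fun m => (hm m).not))) hex
  have hae : ∀ᵐ x ∂mu ι, x + d (Nat.find (hex x)) ∈ H := by
    filter_upwards [ergodic_prim hH h0] with x ⟨f, hf, hx⟩
    obtain ⟨n, rfl⟩ := hd' f hf
    exact (Nat.find_spec (hex x)).resolve_right fun h => h n hx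
  refine ⟨_, hτ, fun x => deg_add_prim (hd _) x, hae, fun Z hZ N hN hN0 => ?_⟩
  let M : ℕ → Set (ι → Bool) := fun n =>
    N ∩ {x | x + d (Nat.find (hex x)) = x + d n} ∩ {x | x + d n ∈ H}
  have hM : ∀ n, MeasurableSet (M n) := fun n =>
    (hN.inter (measurableSet_eq_fun hτ (measurable_add_const _))).inter
      (measurableSet_setOfPred.2 (hm n))
  have : ∃ n, mu ι (M n) ≠ 0 := by
    by_contra h
    push Not at h
    apply hN0
    refine measure_mono_null ?_ (measure_union_null (measure_iUnion_null h) (ae_iff.1 hae))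
    intro x hx
    by_cases h1 : x + d (Nat.find (hex x)) ∈ H
    · exact Or.inl (mem_iUnion.2 ⟨Nat.find (hex x), ⟨hx, rfl⟩, h1⟩)
    · exact Or.inr h1
  obtain ⟨n, hn⟩ := this
  have hdd : ∀ y : ι → Bool, y + d n + d n = y := fun y => by
    rw [add_assoc, add_self_fun, add_zero]
  obtain ⟨y, hy, hyZ⟩ := hZ ((fun y => y + d n) ⁻¹' M n) (measurable_add_const _ (hM n))
    (fun y hy => by simpa only [mem_ofPred_eq, hdd] using hy.2)
    (by rwa [measure_preimage_add_right])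
  refine ⟨y + d n, hy.1.1, ?_⟩
  have h2 : y + d n + d (Nat.find (hex (y + d n))) = y + d n + d n := hy.1.2
  rw [mem_preimage, h2, hdd]
  exact hyZ

theorem rep_ae (π : Degree ≃o Degree) (ι : Type) [Primcodable ι] :
    ∃ F : (ι → Bool) → ℕ → Bool, Measurable F ∧ ∀ᵐ x ∂mu ι, deg (F x) = π (deg x) := by
  classical
  obtain ⟨F, hF, hF'⟩ := candidates π ι
  let Z : ℕ → Set (ι → Bool) := fun e => {x | π (deg x) = deg (F e x)}
  let H : ℕ → Set (ι → Bool) := fun e => toMeasurable (mu ι) (Z e)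
  have hZ : ∀ x, ∃ e, x ∈ Z e := fun x => by
    obtain ⟨e, he⟩ := hF' x (rep (π (deg x))) (deg_rep _)
    exact ⟨e, by simp only [Z, mem_ofPred_eq, he, deg_rep]⟩
  have hH : ∀ x, ∃ e, x ∈ H e := fun x => (hZ x).imp fun e he => subset_toMeasurable _ _ he
  have hhull : ∀ e N, MeasurableSet N → N ⊆ H e → mu ι N ≠ 0 → ∃ x ∈ N, x ∈ Z e := by
    intro e N hN h1 h2
    have := Measure.measure_toMeasurable_inter hN (measure_ne_top (mu ι) (Z e))
    rw [inter_eq_right.2 h1] at this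
    obtain ⟨x, hx⟩ := nonempty_of_measure_ne_zero (this ▸ h2)
    exact ⟨x, hx.2, hx.1⟩
  have hB : ∀ e e', mu ι (H e ∩ H e' ∩ {x | deg (F e x) ≤ deg (F e' x)}ᶜ) = 0 := by
    intro e e'
    by_contra h0
    obtain ⟨τ, h1, h2, h3, h4⟩ := exists_tau (((measurableSet_toMeasurable _ _).inter
      (measurableSet_toMeasurable _ _)).inter
        ((MD.of_deg (hF e)).le (MD.of_deg (hF e'))).compl) h0
    have h5 := h4 (Z e) fun N hN h => hhull e N hN fun x hx => (h hx).1.1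
    have h6 := h4 (Z e') fun N hN h => hhull e' N hN fun x hx => (h hx).1.2
    refine diag π (MD.of_deg ((hF e).comp h1)) (MD.of_deg ((hF e').comp h1)) ?_ ?_
      (h3.mono fun x hx => hx.2)
    · simpa only [Z, preimage_ofPred_eq, h2, Function.comp] using h5
    · simpa only [Z, preimage_ofPred_eq, h2, Function.comp] using h6
  refine ⟨fun x => F (Nat.find (hH x)) x,
    Measurable.find (p := fun e x => x ∈ H e) hF (fun e => measurableSet_toMeasurable _ _) hH, ?_⟩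
  have hB' : ∀ᵐ x ∂mu ι, ∀ e e', x ∉ H e ∩ H e' ∩ {x | deg (F e x) ≤ deg (F e' x)}ᶜ := by
    simp only [ae_all_iff]
    exact fun e e' => measure_eq_zero_iff_ae_notMem.1 (hB e e')
  filter_upwards [hB'] with x hx
  obtain ⟨e, he⟩ := hZ x
  have h1 : x ∈ H e := subset_toMeasurable _ _ he
  have h2 := Nat.find_spec (hH x)
  rw [show π (deg x) = deg (F e x) from he]
  refine le_antisymm ?_ ?_
  · by_contra h; exact hx _ _ ⟨⟨h2, h1⟩, h⟩
  · by_contra h; exact hx _ _ ⟨⟨h1, h2⟩, h⟩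

theorem rep_inj (π : Degree ≃o Degree) (ι : Type) [Primcodable ι] :
    ∃ (F : (ι → Bool) → ℕ ⊕ ℕ → Bool) (K : (ℕ ⊕ ℕ → Bool) → ι → Bool), Measurable F ∧
      Measurable K ∧ ∀ᵐ x ∂mu ι, deg (F x) = π (deg x) ∧ K (F x) = x := by
  classical
  obtain ⟨F, hF, hF'⟩ := rep_ae π ι
  obtain ⟨G, hG, hG'⟩ := candidates π.symm ℕ
  let I : (ι → Bool) → ℕ → Bool := fun x m =>
    decide (G m (F x) = hat x ∧ ∀ m' < m, G m' (F x) ≠ hat x)
  have hm : ∀ m, Measurable (fun x => G m (F x) = hat x) := fun m =>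
    measurableSet_setOfPred.1 (measurableSet_eq_fun ((hG m).comp hF) measurable_hat)
  have hI : Measurable I := measurable_pi_lambda _ fun m => by
    have := measurable_decide (p := fun x => G m (F x) = hat x ∧ ∀ m' < m, G m' (F x) ≠ hat x)
      ((hm m).and (Measurable.forall fun m' => Measurable.forall fun _ => (hm m').not))
    convert this using 2
    simp only [I, decide_eq_decide]
  refine ⟨fun x => Sum.elim (I x) (F x), fun y i => decide (∃ m, gr y (Sum.inl m, true) ∧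
    gr (G m (fun k => y (Sum.inr k))) (Encodable.encode i, true)), measurable_sumElim hI hF,
    measurable_pi_lambda _ fun i => measurable_decide (Measurable.exists fun m =>
      (measurable_gr measurable_id _).and (measurable_gr ((hG m).comp
        (measurable_pi_lambda _ fun k => measurable_pi_apply _)) _)), ?_⟩
  filter_upwards [hF'] with x hx
  have hex : ∃ m, G m (F x) = hat x := hG' (F x) (hat x) (by rw [hx, deg_hat, π.symm_apply_apply])
  have hI' : I x = fun m => decide (m = Nat.find hex) := by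
    funext m
    simp only [I, eq_comm (a := m), Nat.find_eq_iff, ne_eq]
  constructor
  · rw [deg_sum, ← hx, hI']
    exact sup_eq_right.2 (deg_prim_le (PrimrecPred.decide (Primrec.eq.comp Primrec.id (const _))) _)
  · funext i
    simp [gr, hI', Nat.find_spec hex, hat_encode]

end Vale.Agent.P327
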