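import Vale.Agent.P327.Mach
import Vale.Agent.P327.Rep

/-! Rigidity of the Turing degrees. -/

namespace Vale.Agent.P327

open Primrec MeasureTheory Set
open scoped ENNReal

/-- Words of bounded length on either side. -/
noncomputable def words (n : ℕ) : Finset (Bool × List Gen) :=
  Finset.univ ×ˢ (List.finite_length_le Gen n).toFinset

/-- Pull back along all short words. -/
def pull (n : ℕ) (A : Bool → Set XX) : Set XX := ⋃ z ∈ words n, act z.1 z.2 ⁻¹' A z.1

theorem notMem_pull {n : ℕ} {A : Bool → Set XX} {y : XX} (h : y ∉ pull n A) (sd : Bool)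
    {w : List Gen} (hw : w.length ≤ n) : act sd w y ∉ A sd := fun h' =>
  h (mem_iUnion₂.2 ⟨(sd, w), by simp [words, hw], h'⟩)

theorem measurableSet_pull (n : ℕ) {A : Bool → Set XX} (hA : ∀ sd, MeasurableSet (A sd)) :
    MeasurableSet (pull n A) :=
  Finset.measurableSet_biUnion _ fun z _ => (continuous_act _ _).measurable (hA z.1)

theorem mu_pull (n : ℕ) {A : Bool → Set XX} (hA : ∀ sd, MeasurableSet (A sd)) {r : ℝ}
    (h : ∀ sd, (mu _).real (A sd) ≤ r) : (mu _).real (pull n A) ≤ (words n).card * r := by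
  refine (measureReal_biUnion_finset_le _ _).trans ?_
  rw [← nsmul_eq_mul, ← Finset.sum_const]
  refine Finset.sum_le_sum fun z _ => ?_
  rw [(mp_act _ _).measureReal_preimage (hA _).nullMeasurableSet]
  exact h _

theorem geo_bound (A : ℕ → Set XX) (h : ∀ n, (mu _).real (A n) ≤ 2 / 100 / 2 / 2 ^ n) :
    (mu _).real (⋃ n, A n) ≤ 2 / 100 := by
  refine ENNReal.toReal_le_of_le_ofReal (by norm_num) ((measure_iUnion_le _).trans ?_)
  rw [← tsum_geometric_two' (2 / 100),
    ENNReal.ofReal_tsum_of_nonneg (fun n => by positivity) (summable_geometric_two' _)]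
  refine ENNReal.tsum_le_tsum fun n => ?_
  rw [← ofReal_measureReal]
  exact ENNReal.ofReal_le_ofReal (h n)

theorem exists_ops (π : Degree ≃o Degree) {F : XX → ℕ ⊕ ℕ → Bool} {K : (ℕ ⊕ ℕ → Bool) → XX}
    (hF : Measurable F) (hK : Measurable K) (hF' : ∀ᵐ x ∂mu _, deg (F x) = π (deg x))
    (hK' : ∀ᵐ x ∂mu _, K (F x) = x) {ε : ℝ} (hε : 0 < ε) :
    ∃ W : (ℕ × List ((ℕ ⊕ ℕ) × Bool)) × Qu (ℕ ⊕ ℕ) → Prop, PrimrecPred W ∧
      ∃ Bad, MeasurableSet Bad ∧ (mu _).real Bad ≤ ε ∧
      (∀ y ∉ Bad, ∀ sd s q, gr (F (gen sd s y)) q ↔ app W (gr (F y)) (Sum.inl ((sd, s), q))) ∧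
      (∀ y ∉ Bad, ∀ b, y i0 = b ↔ app W (gr (F y)) (Sum.inr b)) := by
  let p : XX → Qu (ℕ ⊕ ℕ) → Prop := fun x =>
    Sum.elim (fun z => gr (F (gen z.1.1 z.1.2 x)) z.2) (fun b => x i0 = b)
  have hp : ∀ q, Measurable (fun x => p x q) := by
    rintro (z | b)
    · exact measurable_gr (hF.comp (continuous_gen _ _).measurable) _
    · exact measurable_gr measurable_id (i0, b)
  have hae : ∀ᵐ x ∂mu _, En1 (gr (F x)) (p x) := by
    have h1 : ∀ᵐ x ∂mu _, ∀ z : Bool × Gen, deg (F (gen z.1 z.2 x)) = π (deg (gen z.1 z.2 x)) :=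
      ae_all_iff.2 fun z => (mp_gen z.1 z.2).quasiMeasurePreserving.ae
        (p := fun x => deg (F x) = π (deg x)) hF'
    filter_upwards [h1, hF'] with x h1 h2
    refine En.sum (En.finite (p := fun (z : Bool × Gen) (_ : Unit) => gr (F (gen z.1 z.2 x)))
      fun z => ?_) (En.prim (Primrec.eq.comp (const _) Primrec.id))
    refine deg_le.1 ?_
    rw [h1, h2]
    exact π.monotone (deg_gen _ _ _)
  obtain ⟨W, hW, Bad, hB1, hB2, hB3⟩ := approx_op hF hK hK' hp hae (ε := ENNReal.ofReal ε)
    (by simpa using hε)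
  exact ⟨W, hW, Bad, hB1, ENNReal.toReal_le_of_le_ofReal hε.le hB2,
    fun y hy sd s q => hB3 y hy (Sum.inl ((sd, s), q)), fun y hy b => hB3 y hy (Sum.inr b)⟩

/-- Exceptional sets. -/
def exc (c : ℕ) (Bad : Set XX) : ℕ → Set XX
  | 0 => pull (6 * c + 6) fun _ => Bad
  | j + 1 => exc c Bad j ∪ pull 6 fun sd => Many (!sd) (allStr (j + c)) (exc c Bad j)

theorem measurableSet_exc (c : ℕ) {Bad : Set XX} (hB : MeasurableSet Bad) (j : ℕ) :
    MeasurableSet (exc c Bad j) := by
  induction j with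
  | zero => exact measurableSet_pull _ fun _ => hB
  | succ j ih => exact ih.union (measurableSet_pull _ fun sd => measurableSet_many _ _ ih)

theorem const_bound {c : ℕ} {M : ℝ} (hc : M * 2000 * 100 < 2 ^ c) (n : ℕ) {k : ℝ} (hk : k ≤ M) :
    k * (2000 / ((2 ^ (n + c) : ℕ) : ℝ)) ≤ 2 / 100 / 2 / 2 ^ n := by
  push_cast
  rw [pow_add, ← mul_div_assoc, div_le_div_iff₀ (by positivity) (by positivity)]
  have : (0 : ℝ) < 2 ^ n := by positivity
  nlinarith [mul_le_mul_of_nonneg_right hk this.le, mul_lt_mul_of_pos_right hc this]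

theorem mu_exc {c : ℕ} (hc : (((words 6).card : ℝ) + 2) * 2000 * 100 < 2 ^ c) {Bad : Set XX}
    (hB : MeasurableSet Bad)
    (hB' : (mu _).real Bad ≤ 1 / 100 / ((words (6 * c + 6)).card + 1)) :
    (mu _).real (⋃ j, exc c Bad j) ≤ 3 / 100 := by
  have hSr : ∀ j, (mu _).real (exc c Bad j) ≤ 3 / 100 - 2 / 100 / 2 ^ j := by
    intro j
    induction j with
    | zero =>
      refine (mu_pull _ (fun _ => hB) fun _ => hB').trans ?_
      generalize (words (6 * c + 6)).card = M
      rw [← mul_div_assoc, div_le_iff₀ (by positivity)]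
      norm_num
      linarith
    | succ j ih =>
      have h0 : (0 : ℝ) < 2 / 100 / 2 ^ j := by positivity
      have h1 := mu_pull 6 (A := fun sd => Many (!sd) (allStr (j + c)) (exc c Bad j))
        (fun sd => measurableSet_many _ _ (measurableSet_exc c hB j))
        fun sd => gap (!sd) _ (nodup_allStr _) (fun u hu => mem_allStr.1 hu)
          (by simp [length_allStr]) (measurableSet_exc c hB j) (by linarith)
      rw [length_allStr] at h1
      have h2 := const_bound hc j (k := (words 6).card) (by linarith)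
      refine (measureReal_union_le _ _).trans ?_
      have h3 : (2 : ℝ) / 100 / 2 ^ (j + 1) = 2 / 100 / 2 / 2 ^ j := by rw [pow_succ]; field_simp
      have h4 : (2 : ℝ) / 100 / 2 ^ j = 2 * (2 / 100 / 2 / 2 ^ j) := by field_simp
      linarith
  refine ENNReal.toReal_le_of_le_ofReal (by norm_num) ?_
  rw [(monotone_nat_of_le_succ (f := exc c Bad) fun j => subset_union_left).measure_iUnion]
  refine iSup_le fun j => ?_
  rw [← ofReal_measureReal]
  have h0 : (0 : ℝ) < 2 / 100 / 2 ^ j := by positivity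
  exact ENNReal.ofReal_le_ofReal (by linarith [hSr j])

theorem mu_bits {c : ℕ} (hc : (2 : ℝ) * 2000 * 100 < 2 ^ c) {S : Set XX} (hS : MeasurableSet S)
    (hS' : (mu _).real S ≤ 1 / 25) :
    (mu _).real (⋃ n, Many false ((allStr (n + c)).map (cb n true)) S ∪
      Many false ((allStr (n + c)).map (cb n false)) S) ≤ 2 / 100 := by
  have hBr : ∀ n b, (mu _).real (Many false ((allStr (n + c)).map (cb n b)) S) ≤
      2000 / ((2 ^ (n + c) : ℕ) : ℝ) := by
    intro n b
    have := gap false ((allStr (n + c)).map (cb n b))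
      ((nodup_allStr _).map fun u v h => by simpa [cb] using h) (k := n + (n + c + 1))
      (fun u hu => by
        obtain ⟨v, hv, rfl⟩ := List.mem_map.1 hu
        simp [cb, mem_allStr.1 hv]) (by simp [length_allStr]) hS hS'
    rwa [show (((allStr (n + c)).map (cb n b)).length : ℝ) = ((2 ^ (n + c) : ℕ) : ℝ) by
      rw [List.length_map, length_allStr]] at this
  refine geo_bound _ fun n => (measureReal_union_le _ _).trans ?_
  linarith [const_bound hc n le_rfl, hBr n true, hBr n false]

theorem decode (π : Degree ≃o Degree) : ∃ N : Set XX, MeasurableSet N ∧ (mu _).real N ≤ 1 / 10 ∧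
    ∀ x ∉ N, deg (fun n => x (pos n)) ≤ π (deg x) := by
  obtain ⟨F, K, hF, hK, hFK⟩ := rep_inj π (Al × Al)
  obtain ⟨c, hc⟩ : ∃ c : ℕ, (((words 6).card : ℝ) + 2) * 2000 * 100 < 2 ^ c :=
    pow_unbounded_of_one_lt _ one_lt_two
  have hF' := hFK.mono fun _ h => h.1
  obtain ⟨W, hW, Bad, hB1, hB2, hB3, hB4⟩ := exists_ops π hF hK hF' (hFK.mono fun _ h => h.2)
    (ε := 1 / 100 / ((words (6 * c + 6)).card + 1)) (by positivity)
  have h1 := mu_exc hc hB1 hB2
  have hSi : MeasurableSet (⋃ j, exc c Bad j) := MeasurableSet.iUnion (measurableSet_exc c hB1)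
  have h2 := mu_bits (c := c) (by linarith [Nat.cast_nonneg (α := ℝ) (words 6).card]) hSi
    (by linarith)
  have hZ := ae_iff.1 hF'
  refine ⟨((⋃ j, exc c Bad j) ∪ ⋃ n, Many false ((allStr (n + c)).map (cb n true)) _ ∪
      Many false ((allStr (n + c)).map (cb n false)) _) ∪ toMeasurable (mu _) _,
    (hSi.union (MeasurableSet.iUnion fun n => (measurableSet_many _ _ hSi).union
      (measurableSet_many _ _ hSi))).union
      (measurableSet_toMeasurable _ {a | ¬ deg (F a) = π (deg a)}), ?_, ?_⟩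
  · refine (measureReal_union_le _ _).trans ?_
    rw [measureReal_def _ (toMeasurable _ _), measure_toMeasurable, hZ, ENNReal.toReal_zero,
      add_zero]
    refine (measureReal_union_le _ _).trans ?_
    linarith
  · intro x hx
    have h1 : deg (F x) = π (deg x) := by
      by_contra h
      exact hx (Or.inr (subset_toMeasurable _ _ h))
    rw [← h1, deg_le]
    refine red_bits (c := c) hW hB3 hB4 (S := exc c Bad)
      (fun sd w y hw hy => notMem_pull (A := fun _ => Bad) hy sd hw)
      (fun j => subset_union_left)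
      (fun j sd w y hw hy => notMem_pull
        (A := fun sd => Many (!sd) (allStr (j + c)) (exc c Bad j))
        (fun h => hy (Or.inr h)) sd hw) (fun h => hx (Or.inl (Or.inl h))) fun n b h => ?_
    refine hx (Or.inl (Or.inr (mem_iUnion.2 ⟨n, ?_⟩)))
    cases b
    · exact Or.inr h
    · exact Or.inl h

theorem symm_le (π : Degree ≃o Degree) (a : Degree) : π.symm a ≤ a := by
  by_contra h
  obtain ⟨N, hN, hN', hd⟩ := decode π
  let t : XX := fun i => rep a (Encodable.encode i.1.2 / 2 - 1)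
  have ht : deg t ≤ a := by
    conv_rhs => rw [← deg_rep a]
    exact deg_le.2 (Red.comp (nat_sub.comp (nat_div.comp (Primrec.encode.comp (snd.comp fst))
      (const 2)) (const 1)) fun _ => rfl)
  have h1 : (mu _).real ((N ∪ (fun x => x + t) ⁻¹' N) ∪ {y : XX | π.symm a ≤ a ⊔ deg y}) < 1 := by
    refine (measureReal_union_le _ _).trans_lt ?_
    rw [measureReal_def _ {y : XX | π.symm a ≤ a ⊔ deg y}, sacks _ h]
    have := measureReal_union_le (μ := mu _) N ((fun x => x + t) ⁻¹' N)
    rw [measureReal_def _ (_ ⁻¹' N), measure_preimage_add_right, ← measureReal_def] at this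
    simp only [ENNReal.toReal_zero]
    linarith
  obtain ⟨x, hx⟩ : ∃ x, x ∉ (N ∪ (fun x => x + t) ⁻¹' N) ∪ {y : XX | π.symm a ≤ a ⊔ deg y} := by
    by_contra h2
    push Not at h2
    rw [eq_univ_of_forall h2] at h1
    simp at h1
  simp only [mem_union, mem_preimage, mem_ofPred_eq, not_or] at hx
  apply hx.2
  have h2 : rep a = (fun n => x (pos n)) + fun n => (x + t) (pos n) := by
    funext n
    have : t (pos n) = rep a n := by
      simp only [t, pos, encode_ofNat]
      congr 1
      omega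
    show rep a n = xor (x (pos n)) (xor (x (pos n)) (t (pos n)))
    rw [this]
    simp
  rw [π.symm_apply_le]
  conv_lhs => rw [← deg_rep a, h2]
  refine (deg_add_le _ _).trans (sup_le ((hd x hx.1.1).trans (π.monotone le_sup_right))
    ((hd _ hx.1.2).trans (π.monotone ?_)))
  rw [sup_comm]
  exact (deg_add_le _ _).trans (sup_le_sup_left ht _)

theorem rigid (π : Degree ≃o Degree) (a : Degree) : π a = a :=
  le_antisymm (symm_le π.symm a) (π.symm_apply_le.1 (symm_le π a))

end Vale.Agent.P327
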