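import Vale.Agent.P327.En
import Vale.Agent.P327.Defs

/-! Equivalence of Turing reducibility and enumeration reducibility of graphs. -/

namespace Vale.Agent.P327

open Primrec

/-- Graph of a Boolean function. -/
def gr {ι : Type} (x : ι → Bool) : ι × Bool → Prop := fun q => x q.1 = q.2

/-- Non-uniform version. -/
def En1 {β α : Type} [Primcodable β] [Primcodable α] (G : β → Prop) (p : α → Prop) : Prop :=
  En (fun _ : Unit => G) (fun _ => p)

/-- Reducibility of Boolean functions. -/
def Red {ι κ : Type} [Primcodable ι] [Primcodable κ] (x : ι → Bool) (y : κ → Bool) : Prop :=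
  En1 (gr y) (gr x)

theorem en_of_rec {g f : ℕ →. ℕ} (h : Nat.RecursiveIn {g} f) :
    En (fun (_ : Unit) (z : ℕ × ℕ) => z.2 ∈ g z.1) (fun _ (z : ℕ × ℕ) => z.2 ∈ f z.1) := by
  induction h with
  | zero =>
    refine (En.prim (Primrec.eq.comp snd (const 0))).of_eq ?_
    intro _ z
    exact (Part.mem_some_iff (a := 0)).symm
  | succ =>
    exact (En.prim (Primrec.eq.comp snd (Primrec.succ.comp fst))).of_eq (by simp)
  | left =>
    exact (En.prim (Primrec.eq.comp snd (fst.comp (Primrec.unpair.comp fst)))).of_eq (by simp)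
  | right =>
    exact (En.prim (Primrec.eq.comp snd (snd.comp (Primrec.unpair.comp fst)))).of_eq (by simp)
  | oracle g' hg =>
    rw [Set.mem_singleton_iff.1 hg]
    exact En.self
  | @pair f h _ _ ihf ihh =>
    have : En (fun (_ : Unit) (z : ℕ × ℕ) => z.2 ∈ g z.1)
        (fun _ (z : (ℕ × ℕ) × (ℕ × ℕ)) => z.2.1 ∈ f z.1.1 ∧ z.2.2 ∈ h z.1.1 ∧
          z.1.2 = Nat.pair z.2.1 z.2.2) :=
      (ihf.comp ((fst.comp fst).pair (fst.comp snd))).and
        ((ihh.comp ((fst.comp fst).pair (snd.comp snd))).and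
          (En.prim (Primrec.eq.comp (snd.comp fst)
            (Primrec₂.natPair.comp (fst.comp snd) (snd.comp snd)))))
    refine this.ex.of_eq ?_
    intro _ z
    simp [Seq.seq, eq_comm]
  | @comp f h _ _ ihf ihh =>
    have : En (fun (_ : Unit) (z : ℕ × ℕ) => z.2 ∈ g z.1)
        (fun _ (z : (ℕ × ℕ) × ℕ) => z.2 ∈ h z.1.1 ∧ z.1.2 ∈ f z.2) :=
      (ihh.comp ((fst.comp fst).pair snd)).and (ihf.comp (snd.pair (snd.comp fst)))
    refine this.ex.of_eq ?_
    intro _ z
    exact (Part.mem_bind_iff (f := h z.1) (g := f) (b := z.2)).symm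
  | @prec f h _ _ ihf ihh =>
    let G : Unit → ℕ × ℕ → Prop := fun _ z => z.2 ∈ g z.1
    let Φ : Unit → ((ℕ × ℕ) × ℕ → Prop) → (ℕ × ℕ) × ℕ → Prop := fun _ P z =>
      (z.1.2 = 0 ∧ z.2 ∈ f z.1.1) ∨ ∃ c : ℕ × ℕ, z.1.2 = c.1 + 1 ∧ P ((z.1.1, c.1), c.2) ∧
        z.2 ∈ h (Nat.pair z.1.1 (Nat.pair c.1 c.2))
    have hG : En (fun z : Unit × ((ℕ × ℕ) × ℕ → Prop) => Sum.elim (G z.1) z.2)
        (fun z => G z.1) := En.inl
    have hP : En (fun z : Unit × ((ℕ × ℕ) × ℕ → Prop) => Sum.elim (G z.1) z.2)
        (fun z => z.2) := En.inr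
    have hf := (ihf.reindex (Prod.fst : Unit × ((ℕ × ℕ) × ℕ → Prop) → Unit)).trans hG
    have hh := (ihh.reindex (Prod.fst : Unit × ((ℕ × ℕ) × ℕ → Prop) → Unit)).trans hG
    have h2 : En (fun z : Unit × ((ℕ × ℕ) × ℕ → Prop) => Sum.elim (G z.1) z.2)
        (fun t (y : ((ℕ × ℕ) × ℕ) × (ℕ × ℕ)) => y.1.1.2 = y.2.1 + 1 ∧
          t.2 ((y.1.1.1, y.2.1), y.2.2) ∧ y.1.2 ∈ h (Nat.pair y.1.1.1 (Nat.pair y.2.1 y.2.2))) :=
      (En.prim (Primrec.eq.comp (snd.comp (fst.comp fst)) (Primrec.succ.comp (fst.comp snd)))).and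
        ((hP.comp (((fst.comp (fst.comp fst)).pair (fst.comp snd)).pair (snd.comp snd))).and
          (hh.comp ((Primrec₂.natPair.comp (fst.comp (fst.comp fst))
            (Primrec₂.natPair.comp (fst.comp snd) (snd.comp snd))).pair (snd.comp fst))))
    have h1 : En (fun z : Unit × ((ℕ × ℕ) × ℕ → Prop) => Sum.elim (G z.1) z.2)
        (fun z => Φ z.1 z.2) :=
      ((En.prim (Primrec.eq.comp (snd.comp fst) (const 0))).and
        (hf.comp ((fst.comp fst).pair snd))).or h2.ex
    obtain ⟨P, hP1, hP2⟩ := En.fix h1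
    have key : ∀ a n m, P () ((a, n), m) ↔ m ∈ (Nat.rec (f a) (fun y IH => do
          let i ← IH
          h (Nat.pair a (Nat.pair y i))) n : Part ℕ) := by
      intro a n
      induction n with
      | zero => intro m; rw [hP2]; simp [Φ]
      | succ n ih =>
        intro m
        rw [hP2]
        simp only [Φ, Nat.succ_ne_zero, false_and, false_or, Nat.add_right_cancel_iff,
          Prod.exists, exists_and_left, exists_eq_left', ih]
        simp
    refine (hP1.comp ((Primrec.unpair.comp fst).pair snd)).of_eq ?_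
    intro _ z
    exact key _ _ _
  | @rfind f _ ihf =>
    have h1 : En (fun (_ : Unit) (z : ℕ × ℕ) => z.2 ∈ g z.1)
        (fun _ (y : ((ℕ × ℕ) × ℕ) × ℕ) => y.2 + 1 ∈ f (Nat.pair y.1.1.1 y.1.2)) :=
      ihf.comp ((Primrec₂.natPair.comp (fst.comp (fst.comp fst)) (snd.comp fst)).pair
        (Primrec.succ.comp snd))
    have h2 := (ihf.comp ((Primrec₂.natPair.comp (fst (α := ℕ) (β := ℕ)) snd).pair
      (const 0))).and (h1.ex.all (list_range.comp snd))
    refine h2.of_eq ?_
    intro _ z
    refine Iff.trans ?_ Nat.mem_rfind.symm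
    simp only [List.mem_range, Part.map_eq_map, Part.mem_map_iff]
    refine and_congr ?_ (forall_congr' fun m => imp_congr_right fun _ => ?_)
    · simp
    · constructor
      · rintro ⟨c, hc⟩; exact ⟨_, hc, by simp⟩
      · rintro ⟨c, hc, h0⟩
        obtain ⟨c, rfl⟩ := Nat.exists_eq_succ_of_ne_zero (n := c) (by simpa using h0)
        exact ⟨c, hc⟩

/-- Total functions recursive in an oracle. -/
def TI (O : Set (ℕ →. ℕ)) (f : ℕ → ℕ) : Prop := Nat.RecursiveIn O (fun n => Part.some (f n))

theorem TI.prim {O} {f : ℕ → ℕ} (h : Primrec f) : TI O f :=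
  Nat.Primrec.recursiveIn (Primrec.nat_iff.1 h)

theorem TI.comp {O} {f g : ℕ → ℕ} (hf : TI O f) (hg : TI O g) : TI O (fun n => f (g n)) :=
  (Nat.RecursiveIn.comp hf hg).of_eq (by simp)

theorem TI.pair {O} {f g : ℕ → ℕ} (hf : TI O f) (hg : TI O g) :
    TI O (fun n => Nat.pair (f n) (g n)) :=
  (Nat.RecursiveIn.pair hf hg).of_eq (by simp [Seq.seq])

theorem TI.prec {O} {f h : ℕ → ℕ} (hf : TI O f) (hh : TI O h) :
    TI O (fun p => Nat.rec (f p.unpair.1)
      (fun y ih => h (Nat.pair p.unpair.1 (Nat.pair y ih))) p.unpair.2) := by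
  refine (Nat.RecursiveIn.prec hf hh).of_eq ?_
  intro p
  dsimp only
  generalize p.unpair.2 = n
  induction n with
  | zero => rfl
  | succ n ih => simp only [ih]; simp

theorem ti_pre {O} {y : ℕ → Bool} (hy : TI O (fun n => (y n).toNat)) :
    TI O (fun k => Encodable.encode ((List.range k).map y)) := by
  let c : ℕ → ℕ := fun z => Encodable.encode
    (((Encodable.decode (α := List Bool) z.unpair.2).getD []) ++ [decide (z.unpair.1 = 1)])
  have hc : Primrec c := Primrec.encode.comp (list_concat.comp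
    (option_getD.comp (Primrec.decode.comp (snd.comp Primrec.unpair)) (const []))
    (PrimrecPred.decide (Primrec.eq.comp (fst.comp Primrec.unpair) (const 1))))
  have h1 : TI O (fun z => c (Nat.pair (y z.unpair.2.unpair.1).toNat z.unpair.2.unpair.2)) :=
    (TI.prim hc).comp ((hy.comp (TI.prim (fst.comp (Primrec.unpair.comp
      (snd.comp Primrec.unpair))))).pair
      (TI.prim (snd.comp (Primrec.unpair.comp (snd.comp Primrec.unpair)))))
  have h2 := ((TI.prim (const (Encodable.encode ([] : List Bool)))).prec h1).comp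
    (TI.prim (Primrec₂.natPair.comp (const 0) Primrec.id))
  have : ∀ k : ℕ, Nat.rec (motive := fun _ => ℕ) (Encodable.encode ([] : List Bool))
      (fun k ih => c (Nat.pair (y k).toNat ih)) k = Encodable.encode ((List.range k).map y) := by
    intro k
    induction k with
    | zero => rfl
    | succ k ih =>
      show c (Nat.pair (y k).toNat (Nat.rec (motive := fun _ => ℕ)
        (Encodable.encode ([] : List Bool)) (fun k ih => c (Nat.pair (y k).toNat ih)) k)) = _
      rw [ih]
      simp only [c, Nat.unpair_pair, Encodable.encodek, Option.getD_some, List.range_succ,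
        List.map_append, List.map_cons, List.map_nil]
      cases y k <;> simp
  refine Nat.RecursiveIn.of_eq h2 ?_
  intro k
  simp only [id, Nat.unpair_pair, this]

theorem ti_of_red {O} {x y : ℕ → Bool} (hy : TI O (fun n => (y n).toNat)) (h : Red x y) :
    TI O (fun n => (x n).toNat) := by
  classical
  obtain ⟨W, hW, h⟩ := h
  let P : (ℕ × ℕ) × List Bool → Prop := fun z =>
    ∃ c ∈ (Encodable.decode (α := (ℕ × List (ℕ × Bool)) × Bool) z.1.2.unpair.2).toList,
      (∀ q ∈ c.1.2, z.2[q.1]? = some q.2) ∧ W (c.1, (z.1.1, c.2))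
  have hP : PrimrecPred P := by
    refine pp_exists_mem (R := fun u : ((ℕ × ℕ) × List Bool) × ((ℕ × List (ℕ × Bool)) × Bool) =>
      (∀ q ∈ u.2.1.2, u.1.2[q.1]? = some q.2) ∧ W (u.2.1, (u.1.1.1, u.2.2)))
      (optionToList.comp (Primrec.decode.comp (snd.comp (Primrec.unpair.comp (snd.comp fst)))))
      (PrimrecPred.and ?_
        (hW.comp ((fst.comp snd).pair ((fst.comp (fst.comp fst)).pair (snd.comp snd)))))
    exact pp_forall_mem (R := fun v : (((ℕ × ℕ) × List Bool) × ((ℕ × List (ℕ × Bool)) × Bool)) ×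
      (ℕ × Bool) => v.1.1.2[v.2.1]? = some v.2.2) (snd.comp (fst.comp snd))
      (Primrec.eq.comp (list_getElem?.comp (snd.comp (fst.comp fst)) (fst.comp snd))
        (option_some.comp (snd.comp snd)))
  let Tst : ℕ → ℕ := fun z => if P (z.unpair.1.unpair,
    (Encodable.decode (α := List Bool) z.unpair.2).getD []) then 0 else 1
  have hT : Primrec Tst := Primrec.ite (hP.comp ((Primrec.unpair.comp (fst.comp Primrec.unpair)).pair
    (option_getD.comp (Primrec.decode.comp (snd.comp Primrec.unpair)) (const [])))) (const 0)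
    (const 1)
  have h1 : TI O (fun z => Tst (Nat.pair z
      (Encodable.encode ((List.range z.unpair.2.unpair.1).map y)))) :=
    (TI.prim hT).comp ((TI.prim Primrec.id).pair ((ti_pre hy).comp
      (TI.prim (fst.comp (Primrec.unpair.comp (snd.comp Primrec.unpair))))))
  let out : ℕ → ℕ := fun k =>
    ((Encodable.decode (α := (ℕ × List (ℕ × Bool)) × Bool) k.unpair.2).map
      (fun c => c.2.toNat)).getD 0
  have hout : Primrec out := option_getD.comp (option_map
    (Primrec.decode.comp (snd.comp Primrec.unpair))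
    ((dom_bool Bool.toNat).comp (snd.comp snd)).to₂) (const 0)
  have h2 := Nat.RecursiveIn.comp (TI.prim (O := O) hout) (Nat.RecursiveIn.rfind h1)
  refine h2.of_eq ?_
  intro n
  have hex : ∃ k, P ((n, k), (List.range k.unpair.1).map y) := by
    obtain ⟨w, l, h3, h4⟩ := (h () (n, x n)).1 rfl
    refine ⟨Nat.pair ((l.map Prod.fst).sum + 1) (Encodable.encode ((w, l), x n)), ((w, l), x n),
      by simp only [Nat.unpair_pair, Encodable.encodek]; simp, ?_, h4⟩
    intro q hq
    have : q.1 ≤ (l.map Prod.fst).sum := List.le_sum_of_mem (List.mem_map_of_mem hq)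
    simp only [Nat.unpair_pair]
    rw [List.getElem?_map, List.getElem?_range (by omega)]
    simpa [gr] using h3 q hq
  rw [Part.eq_some_iff]
  simp only [Part.bind_eq_bind, Part.mem_bind_iff, Part.mem_some_iff]
  refine ⟨Nat.find hex, ?_, ?_⟩
  · refine Nat.mem_rfind.2 ?_
    simp only [Part.map_eq_map, Part.map_some, Part.mem_some_iff, Tst,
      Nat.unpair_pair, Encodable.encodek, Option.getD_some]
    refine ⟨by simp [Nat.find_spec hex], fun {m} hm => ?_⟩
    simp [Nat.find_min hex hm]
  · obtain ⟨c, hc, h3, h4⟩ := Nat.find_spec hex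
    have hc' : Encodable.decode (α := (ℕ × List (ℕ × Bool)) × Bool) (Nat.find hex).unpair.2
      = some c := by simpa using hc
    have : gr x (n, c.2) := by
      refine (h () (n, c.2)).2 ⟨c.1.1, c.1.2, fun q hq => ?_, h4⟩
      have h5 := h3 q hq
      simp only [List.getElem?_map, Option.map_eq_some_iff] at h5
      obtain ⟨a, ha, h6⟩ := h5
      obtain ⟨h7, h8⟩ := List.getElem?_eq_some_iff.1 ha
      simp only [List.getElem_range] at h8
      simpa [gr, h8] using h6
    simp only [out, hc', Option.map_some, Option.getD_some]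
    exact congrArg _ this

open Classical in
/-- Indicator of a set. -/
noncomputable def ind (A : Set ℕ) : ℕ → Bool := fun n => decide (n ∈ A)

theorem chi_eq (A : Set ℕ) : chi A = fun n => Part.some (ind A n).toNat := by
  funext n
  by_cases h : n ∈ A <;> simp [chi, ind, h]

theorem tle_iff (A B : Set ℕ) : TLe A B ↔ Red (ind A) (ind B) := by
  unfold TLe TuringReducible
  rw [RecursiveIn.iff_nat]
  constructor
  · intro h
    have h1 := en_of_rec h
    have h2 : En (fun _ : Unit => gr (ind B)) (fun _ (z : ℕ × ℕ) => z.2 ∈ chi B z.1) := by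
      have : En (fun _ : Unit => gr (ind B))
          (fun _ (z : (ℕ × ℕ) × Bool) => gr (ind B) (z.1.1, z.2) ∧ z.1.2 = z.2.toNat) :=
        (En.self.comp ((fst.comp fst).pair snd)).and
          (En.prim (Primrec.eq.comp (snd.comp fst) ((dom_bool Bool.toNat).comp snd)))
      refine this.ex.of_eq ?_
      intro _ z
      simp [gr, chi_eq]
    refine ((h1.trans h2).comp (fst.pair ((dom_bool Bool.toNat).comp snd))).of_eq ?_
    rintro _ ⟨n, b⟩
    simp only [chi_eq, Part.mem_some_iff, gr]
    cases b <;> cases ind A n <;> simp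
  · intro h
    rw [chi_eq A]
    refine ti_of_red ?_ h
    exact Nat.RecursiveIn.oracle _ (by rw [chi_eq]; rfl)

end Vale.Agent.P327
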